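import Crest.Agent.Lib.SharpSym.Bonami

/-!
# The level inequality, the block lemma and restrictions to subcubes
-/

set_option autoImplicit false

namespace Crest.Agent.SharpSym

open Finset Crest.FinProb

variable {ι : Type*} [Fintype ι] [DecidableEq ι]

/-- The influence of coordinate `e` on a real function. -/
noncomputable def piv (p : ℝ) (e : ι) (F : (ι → Bool) → ℝ) : ℝ := ex p (fun x => |dd e F x|)

lemma piv_nonneg {p : ℝ} (hp0 : 0 < p) (hp1 : p < 1) (e : ι) (F : (ι → Bool) → ℝ) :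
    0 ≤ piv p e F := ex_nonneg hp0.le hp1.le (fun _ => abs_nonneg _)

/-- The level inequality. -/
lemma level_lemma {p : ℝ} (hp0 : 0 < p) (hp1 : p < 1) (F : (ι → Bool) → ℝ)
    (hF : ∀ x, 0 ≤ F x ∧ F x ≤ 1) (e : ι) (d : ℕ) (𝒯 : Finset (Finset ι))
    (h𝒯 : ∀ T ∈ 𝒯, T.card ≤ d) :
    (∑ T ∈ 𝒯.filter (fun T => e ∈ T), coef p F T ^ 2) ^ 2
      ≤ sg p ^ 4 * piv p e F ^ 3 * bB p ^ (d - 1) := by
  classical
  have hs := sg_pos hp0 hp1
  set π := piv p e F with hπ
  have hπ0 : 0 ≤ π := piv_nonneg hp0 hp1 e F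
  set c : Finset ι → ℝ := fun R => if e ∉ R ∧ insert e R ∈ 𝒯 then coef p F (insert e R) else 0
    with hc
  set A := ∑ T ∈ 𝒯.filter (fun T => e ∈ T), coef p F T ^ 2 with hA
  have hA0 : 0 ≤ A := Finset.sum_nonneg (fun _ _ => sq_nonneg _)
  have hsumc : ∑ R, c R ^ 2 = A := by
    have h1 : A = ∑ T : Finset ι, (if T ∈ 𝒯 ∧ e ∈ T then coef p F T ^ 2 else 0) := by
      rw [hA, ← Finset.sum_filter]
      refine Finset.sum_congr ?_ (fun _ _ => rfl)
      ext T; simp
    rw [h1]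
    conv_rhs => rw [sum_finset_split e]
    refine Finset.sum_congr rfl (fun R _ => ?_)
    by_cases hR : e ∈ R
    · simp [hc, hR]
    · by_cases hR2 : insert e R ∈ 𝒯
      · simp [hc, hR, hR2]
      · simp [hc, hR, hR2]
  have hdeg : ∀ S, c S ≠ 0 → S.card ≤ d - 1 := by
    intro S hS
    by_cases h : e ∉ S ∧ insert e S ∈ 𝒯
    · have := h𝒯 _ h.2
      rw [Finset.card_insert_of_notMem h.1] at this
      omega
    · simp [hc, h] at hS
  set h := poly p c with hh
  set v := dd e F with hv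
  have hv1 : ∀ x, |v x| ≤ 1 := by
    intro x
    have h1 := hF (Function.update x e true)
    have h2 := hF (Function.update x e false)
    simp only [hv, dd]
    rw [abs_le]
    constructor <;> linarith [h1.1, h1.2, h2.1, h2.2]
  have hAeq : sg p * ex p (fun x => h x * v x) = A := by
    rw [hh, ex_poly_mul, Finset.mul_sum, ← hsumc]
    refine Finset.sum_congr rfl (fun R _ => ?_)
    by_cases hR : e ∉ R ∧ insert e R ∈ 𝒯
    · have := coef_dd hp0 hp1 F hR.1
      have hcR : c R = coef p F (insert e R) := by simp [hc, hR]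
      rw [hcR, ← this]; ring
    · have hcR : c R = 0 := by simp [hc, hR]
      rw [hcR]; ring
  set Y := ex p (fun x => |v x| * h x ^ 2) with hY
  have hY0 : 0 ≤ Y := ex_nonneg hp0.le hp1.le (fun x => by positivity)
  have hCS1 : ex p (fun x => h x * v x) ^ 2 ≤ π * Y := by
    refine ex_sq_le_mul hp0.le hp1.le (fun _ => abs_nonneg _) (fun x => by positivity) (fun x => ?_)
    apply le_of_eq
    have : |v x| * (|v x| * h x ^ 2) = (|v x| ^ 2) * h x ^ 2 := by ring
    rw [this, sq_abs]; ring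
  have hCS2 : Y ^ 2 ≤ ex p (fun x => v x ^ 2) * ex p (fun x => h x ^ 4) := by
    refine ex_sq_le_mul hp0.le hp1.le (fun x => by positivity) (fun x => by positivity)
      (fun x => ?_)
    apply le_of_eq
    have : (|v x| * h x ^ 2) ^ 2 = (|v x| ^ 2) * h x ^ 4 := by ring
    rw [this, sq_abs]
  have hv2 : ex p (fun x => v x ^ 2) ≤ π := by
    refine ex_mono hp0.le hp1.le (fun x => ?_)
    have h1 := hv1 x
    have h2 := abs_nonneg (v x)
    rw [← sq_abs]
    nlinarith
  have hbon : ex p (fun x => h x ^ 4) ≤ bB p ^ (d - 1) * A ^ 2 := by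
    have := bonami hp0 hp1 (d - 1) c hdeg
    rwa [hsumc] at this
  have hB0 : 0 < bB p := bB_pos hp0 hp1
  have hBk : 0 < bB p ^ (d - 1) := by positivity
  have hh4 : 0 ≤ ex p (fun x => h x ^ 4) := ex_nonneg hp0.le hp1.le (fun x => by positivity)
  have hY2 : Y ^ 2 ≤ π * (bB p ^ (d - 1) * A ^ 2) := by
    calc Y ^ 2 ≤ _ := hCS2
      _ ≤ π * (bB p ^ (d - 1) * A ^ 2) := mul_le_mul hv2 hbon hh4 hπ0
  have hA2 : A ^ 2 ≤ sg p ^ 2 * (π * Y) := by
    rw [← hAeq, mul_pow]
    exact mul_le_mul_of_nonneg_left hCS1 (by positivity)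
  have hA4 : A ^ 4 ≤ sg p ^ 4 * π ^ 3 * bB p ^ (d - 1) * A ^ 2 := by
    calc A ^ 4 = (A ^ 2) ^ 2 := by ring
      _ ≤ (sg p ^ 2 * (π * Y)) ^ 2 := pow_le_pow_left₀ (by positivity) hA2 2
      _ = sg p ^ 4 * π ^ 2 * Y ^ 2 := by ring
      _ ≤ sg p ^ 4 * π ^ 2 * (π * (bB p ^ (d - 1) * A ^ 2)) :=
          mul_le_mul_of_nonneg_left hY2 (by positivity)
      _ = _ := by ring
  by_cases hA00 : A = 0
  · rw [hA00]
    have : 0 ≤ sg p ^ 4 * π ^ 3 * bB p ^ (d - 1) := by positivity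
    simpa using this
  · have hApos : 0 < A ^ 2 := by positivity
    have : A ^ 2 * A ^ 2 ≤ (sg p ^ 4 * π ^ 3 * bB p ^ (d - 1)) * A ^ 2 := by
      calc A ^ 2 * A ^ 2 = A ^ 4 := by ring
        _ ≤ _ := hA4
    exact le_of_mul_le_mul_right this hApos

/-- Level inequality at small influence. -/
lemma level_small {p : ℝ} (hp0 : 0 < p) (hp1 : p < 1) (F : (ι → Bool) → ℝ)
    (hF : ∀ x, 0 ≤ F x ∧ F x ≤ 1) (e : ι) (d : ℕ) (𝒯 : Finset (Finset ι))
    (h𝒯 : ∀ T ∈ 𝒯, T.card ≤ d) {τ η : ℝ} (hη : 0 ≤ η) (hτη : τ * bB p ^ (d - 1) ≤ η ^ 2)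
    (hπ : piv p e F ≤ τ) :
    ∑ T ∈ 𝒯.filter (fun T => e ∈ T), coef p F T ^ 2 ≤ sg p ^ 2 * η * piv p e F := by
  have h1 := level_lemma hp0 hp1 F hF e d 𝒯 h𝒯
  have hπ0 := piv_nonneg hp0 hp1 e F
  have hs := sg_pos hp0 hp1
  have hB0 := bB_pos hp0 hp1
  have h2 : (∑ T ∈ 𝒯.filter (fun T => e ∈ T), coef p F T ^ 2) ^ 2
      ≤ (sg p ^ 2 * η * piv p e F) ^ 2 := by
    refine h1.trans ?_
    have h3 : piv p e F * bB p ^ (d - 1) ≤ η ^ 2 :=
      (mul_le_mul_of_nonneg_right hπ (by positivity)).trans hτη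
    calc sg p ^ 4 * piv p e F ^ 3 * bB p ^ (d - 1)
        = sg p ^ 4 * piv p e F ^ 2 * (piv p e F * bB p ^ (d - 1)) := by ring
      _ ≤ sg p ^ 4 * piv p e F ^ 2 * η ^ 2 := mul_le_mul_of_nonneg_left h3 (by positivity)
      _ = _ := by ring
  exact (abs_le_of_sq_le_sq' h2 (by positivity)).2

/-- The sets of size between `1` and `d` inside `A`. -/
def lowSets (d : ℕ) (A : Finset ι) : Finset (Finset ι) :=
  A.powerset.filter (fun T => 1 ≤ T.card ∧ T.card ≤ d)

lemma mem_lowSets {d : ℕ} {A T : Finset ι} :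
    T ∈ lowSets d A ↔ T ⊆ A ∧ 1 ≤ T.card ∧ T.card ≤ d := by
  simp [lowSets]

/-- The action of a coordinate permutation on points. -/
def permPt (ρ : Equiv.Perm ι) (x : ι → Bool) : ι → Bool := fun i => x (ρ i)

/-- Invariance of the expectation under a permutation of the coordinates. -/
lemma ex_permPt (p : ℝ) (ρ : Equiv.Perm ι) (G : (ι → Bool) → ℝ) :
    ex p (fun x => G (permPt ρ x)) = ex p G := by
  unfold ex
  have hw : ∀ x : ι → Bool, bernoulliWeight p (permPt ρ x) = bernoulliWeight p x := by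
    intro x
    unfold bernoulliWeight permPt
    exact Equiv.prod_comp ρ (fun i => if x i then p else 1 - p)
  have : ∀ x : ι → Bool, bernoulliWeight p x * G (permPt ρ x)
      = (fun y => bernoulliWeight p y * G y) (permPt ρ x) := by
    intro x; simp only [hw]
  simp_rw [this]
  exact Equiv.sum_comp (ρ.symm.arrowCongr (Equiv.refl Bool)) (fun y => bernoulliWeight p y * G y)

lemma chi_map (p : ℝ) (ρ : Equiv.Perm ι) (T : Finset ι) (x : ι → Bool) :
    chi p (T.map ρ.toEmbedding) x = chi p T (permPt ρ x) := by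
  unfold chi permPt
  rw [Finset.prod_map]
  rfl

/-- Invariance of the Fourier coefficients. -/
lemma coef_map (p : ℝ) (ρ : Equiv.Perm ι) {F : (ι → Bool) → ℝ} (hF : ∀ z, F (permPt ρ z) = F z)
    (T : Finset ι) : coef p F (T.map ρ.toEmbedding) = coef p F T := by
  unfold coef
  rw [← ex_permPt p ρ (fun x => F x * chi p T x)]
  exact ex_congr p (fun x => by rw [chi_map, hF])

/-- The variance of a `[0,1]`-valued function is at most `1/4`. -/
lemma var_le_quarter {p : ℝ} (hp0 : 0 < p) (hp1 : p < 1) (F : (ι → Bool) → ℝ)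
    (hF : ∀ x, 0 ≤ F x ∧ F x ≤ 1) :
    ex p (fun x => F x ^ 2) - ex p F ^ 2 ≤ 1 / 4 := by
  have : ex p (fun x => F x ^ 2) ≤ ex p F :=
    ex_mono hp0.le hp1.le (fun x => by nlinarith [(hF x).1, (hF x).2])
  nlinarith [sq_nonneg (ex p F - 1 / 2)]

/-- The block lemma: one of `m` symmetric disjoint blocks. -/
theorem block_lemma {α : Type*} [DecidableEq α] {p : ℝ} (hp0 : 0 < p) (hp1 : p < 1)
    (F : (ι → Bool) → ℝ) (hF : ∀ x, 0 ≤ F x ∧ F x ≤ 1) (κ : Finset α) (E : α → Finset ι)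
    (hdisj : ∀ x ∈ κ, ∀ x' ∈ κ, x ≠ x' → Disjoint (E x) (E x'))
    (hsym : ∀ x ∈ κ, ∀ x' ∈ κ, ∃ ρ : Equiv.Perm ι, (∀ z, F (permPt ρ z) = F z) ∧
      ∀ e ∈ E x, ρ e ∈ E x')
    (d : ℕ) {τ η : ℝ} (hτ : 0 < τ) (hη : 0 ≤ η) (hτη : τ * bB p ^ (d - 1) ≤ η ^ 2)
    {x : α} (hx : x ∈ κ) :
    ∑ T ∈ lowSets d (E x), coef p F T ^ 2
      ≤ (sg p ^ 2 * η + 1 / (4 * κ.card * τ)) * ∑ e ∈ E x, piv p e F := by
  classical
  have hs := sg_pos hp0 hp1
  have hm : (0 : ℝ) < κ.card := by
    have : 0 < κ.card := Finset.card_pos.mpr ⟨x, hx⟩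
    exact_mod_cast this
  set Z : α → ℝ := fun y => ∑ T ∈ lowSets d (E y), coef p F T ^ 2 with hZ
  have hZ0 : ∀ y, 0 ≤ Z y := fun y => Finset.sum_nonneg (fun _ _ => sq_nonneg _)
  have hPiv0 : 0 ≤ ∑ e ∈ E x, piv p e F :=
    Finset.sum_nonneg (fun e _ => piv_nonneg hp0 hp1 e F)
  -- step (a): the pointwise Bessel bound
  have hZsym : ∀ x' ∈ κ, Z x ≤ Z x' := by
    intro x' hx'
    obtain ⟨ρ, hρF, hρE⟩ := hsym x hx x' hx'
    have h1 : Z x = ∑ T ∈ (lowSets d (E x)).image (fun T => T.map ρ.toEmbedding),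
        coef p F T ^ 2 := by
      rw [Finset.sum_image]
      · refine Finset.sum_congr rfl (fun T _ => ?_)
        rw [coef_map p ρ hρF]
      · intro T _ T' _ h
        exact Finset.map_injective ρ.toEmbedding h
    rw [h1]
    refine Finset.sum_le_sum_of_subset_of_nonneg ?_ (fun _ _ _ => sq_nonneg _)
    intro T' hT'
    obtain ⟨T, hT, rfl⟩ := Finset.mem_image.mp hT'
    rw [mem_lowSets] at hT ⊢
    refine ⟨?_, by simpa using hT.2.1, by simpa using hT.2.2⟩
    intro e' he'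
    obtain ⟨e, he, rfl⟩ := Finset.mem_map.mp he'
    exact hρE e (hT.1 he)
  have hsumZ : ∑ y ∈ κ, Z y ≤ 1 / 4 := by
    have hd : (κ : Set α).PairwiseDisjoint (fun y => lowSets d (E y)) := by
      intro y hy y' hy' hne
      show Disjoint (lowSets d (E y)) (lowSets d (E y'))
      refine Finset.disjoint_left.mpr (fun T hT hT' => ?_)
      rw [mem_lowSets] at hT hT'
      obtain ⟨e, he⟩ := Finset.card_pos.mp hT.2.1
      exact Finset.disjoint_left.mp (hdisj y hy y' hy' hne) (hT.1 he) (hT'.1 he)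
    have h1 : ∑ y ∈ κ, Z y = ∑ T ∈ κ.biUnion (fun y => lowSets d (E y)), coef p F T ^ 2 := by
      rw [Finset.sum_biUnion hd]
    rw [h1]
    have hsub : κ.biUnion (fun y => lowSets d (E y)) ⊆ Finset.univ.erase (∅ : Finset ι) := by
      intro T hT
      obtain ⟨y, _, hT⟩ := Finset.mem_biUnion.mp hT
      rw [mem_lowSets] at hT
      rw [Finset.mem_erase]
      refine ⟨?_, Finset.mem_univ _⟩
      rintro rfl
      simp at hT
    calc _ ≤ ∑ S ∈ Finset.univ.erase (∅ : Finset ι), coef p F S ^ 2 :=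
          Finset.sum_le_sum_of_subset_of_nonneg hsub (fun _ _ _ => sq_nonneg _)
      _ = ex p (fun x => F x ^ 2) - ex p F ^ 2 := (variance_eq hp0 hp1 F).symm
      _ ≤ 1 / 4 := var_le_quarter hp0 hp1 F hF
  have hmZ : (κ.card : ℝ) * Z x ≤ 1 / 4 := by
    have : ∑ _y ∈ κ, Z x ≤ ∑ y ∈ κ, Z y := Finset.sum_le_sum hZsym
    rw [Finset.sum_const, nsmul_eq_mul] at this
    linarith
  by_cases hbad : ∃ e ∈ E x, τ < piv p e F
  · -- bad block: a large influence
    obtain ⟨e, he, hlarge⟩ := hbad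
    have hP : τ ≤ ∑ e ∈ E x, piv p e F := by
      refine hlarge.le.trans ?_
      exact Finset.single_le_sum (f := fun e => piv p e F)
        (fun e _ => piv_nonneg hp0 hp1 e F) he
    have h1 : Z x ≤ 1 / (4 * κ.card * τ) * τ := by
      have : 1 / (4 * (κ.card : ℝ) * τ) * τ = 1 / (4 * κ.card) := by
        field_simp
      rw [this, le_div_iff₀ (by positivity)]
      linarith
    have h2 : 1 / (4 * κ.card * τ) * τ ≤ 1 / (4 * κ.card * τ) * ∑ e ∈ E x, piv p e F :=
      mul_le_mul_of_nonneg_left hP (by positivity)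
    have h3 : 0 ≤ sg p ^ 2 * η * ∑ e ∈ E x, piv p e F := by positivity
    show Z x ≤ _
    rw [add_mul]
    linarith
  · -- all influences small
    push Not at hbad
    have hlow : ∀ T ∈ lowSets d (E x), T.card ≤ d := fun T hT => (mem_lowSets.mp hT).2.2
    have h1 : Z x ≤ ∑ e ∈ E x, ∑ T ∈ (lowSets d (E x)).filter (fun T => e ∈ T), coef p F T ^ 2 := by
      simp_rw [Finset.sum_filter]
      rw [Finset.sum_comm]
      refine Finset.sum_le_sum (fun T hT => ?_)
      obtain ⟨hT1, hT2, _⟩ := mem_lowSets.mp hT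
      obtain ⟨e, he⟩ := Finset.card_pos.mp hT2
      calc coef p F T ^ 2 = (fun e' => if e' ∈ T then coef p F T ^ 2 else 0) e := by simp [he]
        _ ≤ ∑ e' ∈ E x, (if e' ∈ T then coef p F T ^ 2 else 0) :=
          Finset.single_le_sum (f := fun e' => if e' ∈ T then coef p F T ^ 2 else 0)
            (fun e' _ => by split_ifs <;> positivity) (hT1 he)
    have h2 : ∑ e ∈ E x, ∑ T ∈ (lowSets d (E x)).filter (fun T => e ∈ T), coef p F T ^ 2
        ≤ ∑ e ∈ E x, sg p ^ 2 * η * piv p e F :=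
      Finset.sum_le_sum (fun e he => level_small hp0 hp1 F hF e d _ hlow hη hτη (hbad e he))
    rw [← Finset.mul_sum] at h2
    have h3 : 0 ≤ 1 / (4 * κ.card * τ) * ∑ e ∈ E x, piv p e F := by positivity
    show Z x ≤ _
    rw [add_mul]
    linarith

/-- Glue two points along `Q`. -/
def merge (Q : Finset ι) (w z : ι → Bool) : ι → Bool := fun i => if i ∈ Q then w i else z i

lemma merge_merge (Q : Finset ι) (w z : ι → Bool) :
    merge Q (merge Q w z) (merge Q z w) = w := by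
  funext i; unfold merge; by_cases h : i ∈ Q <;> simp [h]

lemma merge_merge' (Q : Finset ι) (w z : ι → Bool) :
    merge Q (merge Q z w) (merge Q w z) = z := by
  funext i; unfold merge; by_cases h : i ∈ Q <;> simp [h]

lemma weight_merge (p : ℝ) (Q : Finset ι) (w z : ι → Bool) :
    bernoulliWeight p (merge Q w z) * bernoulliWeight p (merge Q z w)
      = bernoulliWeight p w * bernoulliWeight p z := by
  unfold bernoulliWeight
  rw [← Finset.prod_mul_distrib, ← Finset.prod_mul_distrib]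
  refine Finset.prod_congr rfl (fun i _ => ?_)
  unfold merge
  by_cases h : i ∈ Q
  · simp [h]
  · simp [h, mul_comm]

/-- The swap of two points along `Q`, as an equivalence on pairs. -/
def mergeEquiv (Q : Finset ι) : (ι → Bool) × (ι → Bool) ≃ (ι → Bool) × (ι → Bool) where
  toFun a := (merge Q a.1 a.2, merge Q a.2 a.1)
  invFun a := (merge Q a.1 a.2, merge Q a.2 a.1)
  left_inv a := by
    ext i <;> simp only [merge] <;> by_cases h : i ∈ Q <;> simp [h]
  right_inv a := by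
    ext i <;> simp only [merge] <;> by_cases h : i ∈ Q <;> simp [h]

/-- Gluing preserves the measure. -/
lemma ex_merge (p : ℝ) (Q : Finset ι) (H : (ι → Bool) → ℝ) :
    ex p (fun w => ex p (fun z => H (merge Q w z))) = ex p H := by
  unfold ex
  simp_rw [Finset.mul_sum]
  rw [← Finset.sum_product' (s := Finset.univ) (t := Finset.univ)
    (f := fun w z => bernoulliWeight p w * (bernoulliWeight p z * H (merge Q w z)))]
  rw [Finset.univ_product_univ]
  have h1 : ∀ a : (ι → Bool) × (ι → Bool),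
      bernoulliWeight p a.1 * (bernoulliWeight p a.2 * H (merge Q a.1 a.2))
      = (fun b : (ι → Bool) × (ι → Bool) =>
          bernoulliWeight p b.1 * H b.1 * bernoulliWeight p b.2) (mergeEquiv Q a) := by
    intro a
    simp only [mergeEquiv, Equiv.coe_fn_mk]
    rw [← mul_assoc, ← weight_merge p Q a.1 a.2]
    ring
  simp_rw [h1]
  rw [Equiv.sum_comp (mergeEquiv Q) (fun b : (ι → Bool) × (ι → Bool) =>
          bernoulliWeight p b.1 * H b.1 * bernoulliWeight p b.2)]
  rw [← Finset.univ_product_univ, Finset.sum_product]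
  refine Finset.sum_congr rfl (fun u _ => ?_)
  show ∑ y, bernoulliWeight p u * H u * bernoulliWeight p y = _
  rw [← Finset.mul_sum, sum_weight, mul_one]

lemma chi_merge_left (p : ℝ) {Q S : Finset ι} (hS : S ⊆ Q) (w z : ι → Bool) :
    chi p S (merge Q w z) = chi p S w := by
  unfold chi
  refine Finset.prod_congr rfl (fun i hi => ?_)
  simp [merge, hS hi]

lemma chi_merge_right (p : ℝ) {Q T : Finset ι} (hT : Disjoint T Q) (w z : ι → Bool) :
    chi p T (merge Q w z) = chi p T z := by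
  unfold chi
  refine Finset.prod_congr rfl (fun i hi => ?_)
  simp [merge, Finset.disjoint_left.mp hT hi]

lemma chi_union (p : ℝ) {T S : Finset ι} (h : Disjoint T S) (x : ι → Bool) :
    chi p (T ∪ S) x = chi p T x * chi p S x := by
  unfold chi
  rw [Finset.prod_union h]

/-- The restriction of `F` obtained by freezing the coordinates in `Q` to `w`. -/
def restr (Q : Finset ι) (F : (ι → Bool) → ℝ) (w z : ι → Bool) : ℝ := F (merge Q w z)

/-- The Fourier coefficients of the map `w ↦ coef (restr Q F w) T`. -/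
lemma coef_coef_restr (p : ℝ) {Q T S : Finset ι} (hT : Disjoint T Q) (hS : S ⊆ Q)
    (F : (ι → Bool) → ℝ) :
    coef p (fun w => coef p (restr Q F w) T) S = coef p F (T ∪ S) := by
  have hdisj : Disjoint T S := Finset.disjoint_of_subset_right hS hT
  unfold coef
  rw [← ex_merge p Q (fun u => F u * chi p (T ∪ S) u)]
  refine ex_congr p (fun w => ?_)
  rw [mul_comm, ← ex_const_mul]
  refine ex_congr p (fun z => ?_)
  rw [chi_union p hdisj, chi_merge_left p hS, chi_merge_right p hT]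
  unfold restr
  ring

/-- Bessel's inequality for the frozen coordinates. -/
lemma sum_coef_union_le {p : ℝ} (hp0 : 0 < p) (hp1 : p < 1) {Q T : Finset ι} (hT : Disjoint T Q)
    (F : (ι → Bool) → ℝ) :
    ∑ S ∈ Q.powerset, coef p F (T ∪ S) ^ 2 ≤ ex p (fun w => coef p (restr Q F w) T ^ 2) := by
  have h1 := bessel hp0 hp1 (fun w => coef p (restr Q F w) T) Q.powerset
  refine le_trans (le_of_eq ?_) h1
  refine Finset.sum_congr rfl (fun S hS => ?_)
  rw [coef_coef_restr p hT (Finset.mem_powerset.mp hS)]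

lemma merge_update (Q : Finset ι) {e : ι} (he : e ∉ Q) (w z : ι → Bool) (b : Bool) :
    merge Q w (Function.update z e b) = Function.update (merge Q w z) e b := by
  funext i
  unfold merge
  by_cases hi : i = e
  · subst hi; simp [he]
  · simp [Function.update_of_ne hi]

lemma dd_restr (Q : Finset ι) {e : ι} (he : e ∉ Q) (F : (ι → Bool) → ℝ) (w z : ι → Bool) :
    dd e (restr Q F w) z = dd e F (merge Q w z) := by
  unfold dd restr
  rw [merge_update Q he, merge_update Q he]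

/-- Averaging the influence over the frozen coordinates. -/
lemma ex_piv_restr (p : ℝ) (Q : Finset ι) {e : ι} (he : e ∉ Q) (F : (ι → Bool) → ℝ) :
    ex p (fun w => piv p e (restr Q F w)) = piv p e F := by
  unfold piv
  rw [← ex_merge p Q (fun u => |dd e F u|)]
  refine ex_congr p (fun w => ex_congr p (fun z => ?_))
  rw [dd_restr Q he]

/-- A permutation fixing `Q` pointwise commutes with gluing along `Q`. -/
lemma merge_permPt (Q : Finset ι) (ρ : Equiv.Perm ι) (hρ : ∀ e ∈ Q, ρ e = e) (w z : ι → Bool) :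
    merge Q w (permPt ρ z) = permPt ρ (merge Q w z) := by
  funext i
  unfold merge permPt
  by_cases hi : i ∈ Q
  · simp [hi, hρ i hi]
  · have : ρ i ∉ Q := by
      intro h
      have h2 := hρ _ h
      have h3 : ρ i = i := ρ.injective h2
      exact hi (h3 ▸ h)
    simp [hi, this]

/-- The block lemma averaged over the frozen coordinates. -/
theorem block_avg {α : Type*} [DecidableEq α] {p : ℝ} (hp0 : 0 < p) (hp1 : p < 1)
    (F : (ι → Bool) → ℝ) (hF : ∀ x, 0 ≤ F x ∧ F x ≤ 1) (Q : Finset ι)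
    (κ : Finset α) (E : α → Finset ι)
    (hQ : ∀ x ∈ κ, Disjoint (E x) Q)
    (hdisj : ∀ x ∈ κ, ∀ x' ∈ κ, x ≠ x' → Disjoint (E x) (E x'))
    (hsym : ∀ x ∈ κ, ∀ x' ∈ κ, ∃ ρ : Equiv.Perm ι, (∀ z, F (permPt ρ z) = F z) ∧
      (∀ e ∈ Q, ρ e = e) ∧ ∀ e ∈ E x, ρ e ∈ E x')
    (d : ℕ) {τ η : ℝ} (hτ : 0 < τ) (hη : 0 ≤ η) (hτη : τ * bB p ^ (d - 1) ≤ η ^ 2)
    {x : α} (hx : x ∈ κ) :
    ∑ T ∈ lowSets d (E x), ∑ S ∈ Q.powerset, coef p F (T ∪ S) ^ 2
      ≤ (sg p ^ 2 * η + 1 / (4 * κ.card * τ)) * ∑ e ∈ E x, piv p e F := by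
  have hstep1 : ∑ T ∈ lowSets d (E x), ∑ S ∈ Q.powerset, coef p F (T ∪ S) ^ 2
      ≤ ex p (fun w => ∑ T ∈ lowSets d (E x), coef p (restr Q F w) T ^ 2) := by
    rw [ex_sum]
    refine Finset.sum_le_sum (fun T hT => ?_)
    have hTQ : Disjoint T Q :=
      Finset.disjoint_of_subset_left (mem_lowSets.mp hT).1 (hQ x hx)
    exact sum_coef_union_le hp0 hp1 hTQ F
  have hstep2 : ex p (fun w => ∑ T ∈ lowSets d (E x), coef p (restr Q F w) T ^ 2)
      ≤ ex p (fun w => (sg p ^ 2 * η + 1 / (4 * κ.card * τ))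
          * ∑ e ∈ E x, piv p e (restr Q F w)) := by
    refine ex_mono hp0.le hp1.le (fun w => ?_)
    refine block_lemma hp0 hp1 (restr Q F w) (fun z => hF _) κ E hdisj ?_ d hτ hη hτη hx
    intro y hy y' hy'
    obtain ⟨ρ, h1, h2, h3⟩ := hsym y hy y' hy'
    refine ⟨ρ, fun z => ?_, h3⟩
    unfold restr
    rw [merge_permPt Q ρ h2, h1]
  have hstep3 : ex p (fun w => (sg p ^ 2 * η + 1 / (4 * κ.card * τ))
          * ∑ e ∈ E x, piv p e (restr Q F w))
      = (sg p ^ 2 * η + 1 / (4 * κ.card * τ)) * ∑ e ∈ E x, piv p e F := by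
    rw [ex_const_mul, ex_sum]
    congr 1
    refine Finset.sum_congr rfl (fun e he => ?_)
    exact ex_piv_restr p Q (Finset.disjoint_left.mp (hQ x hx) he) F
  linarith

end Crest.Agent.SharpSym
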