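import Crest.Agent.Lib.SharpSym.Fourier

/-!
# The biased Bonami inequality `‖Q‖₄⁴ ≤ B^deg ‖Q‖₂⁴`, with `B = 4 / σ²`.
-/

set_option autoImplicit false

namespace Crest.Agent.SharpSym

open Finset Crest.FinProb

variable {ι : Type*} [Fintype ι] [DecidableEq ι]

/-- Cauchy-Schwarz for the expectation. -/
lemma ex_sq_le_mul {p : ℝ} (hp0 : 0 ≤ p) (hp1 : p ≤ 1) {f g h : (ι → Bool) → ℝ}
    (hg : ∀ x, 0 ≤ g x) (hh : ∀ x, 0 ≤ h x) (H : ∀ x, f x ^ 2 ≤ g x * h x) :
    ex p f ^ 2 ≤ ex p g * ex p h := by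
  unfold ex
  refine Finset.sum_sq_le_sum_mul_sum_of_sq_le_mul _
    (fun x _ => mul_nonneg (weight_nonneg hp0 hp1 x) (hg x))
    (fun x _ => mul_nonneg (weight_nonneg hp0 hp1 x) (hh x)) (fun x _ => ?_)
  have hw := weight_nonneg hp0 hp1 x
  have := H x
  calc (bernoulliWeight p x * f x) ^ 2 = bernoulliWeight p x ^ 2 * f x ^ 2 := by ring
    _ ≤ bernoulliWeight p x ^ 2 * (g x * h x) := by
        exact mul_le_mul_of_nonneg_left this (sq_nonneg _)
    _ = _ := by ring

/-- The hypercontractive constant. -/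
noncomputable def bB (p : ℝ) : ℝ := 4 / sg p ^ 2

lemma bB_ge {p : ℝ} (hp0 : 0 < p) (hp1 : p < 1) : 16 ≤ bB p := by
  have h1 := sg_sq_le hp0 hp1
  have h2 := sg_pos hp0 hp1
  unfold bB
  rw [le_div_iff₀ (by positivity)]
  linarith

lemma bB_pos {p : ℝ} (hp0 : 0 < p) (hp1 : p < 1) : 0 < bB p := by
  have := bB_ge hp0 hp1; linarith

lemma phi_third {p : ℝ} (hp0 : 0 < p) (hp1 : p < 1) :
    p * phi p true ^ 3 + (1 - p) * phi p false ^ 3 = (1 - 2 * p) / sg p := by
  have h := sg_pos hp0 hp1
  have h2 := sg_sq hp0 hp1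
  have e1 : p * phi p true ^ 3 = sg p * phi p true ^ 2 := by
    rw [← p_phi_true hp0 hp1]; ring
  have e2 : (1 - p) * phi p false ^ 3 = - sg p * phi p false ^ 2 := by
    calc (1 - p) * phi p false ^ 3 = ((1 - p) * phi p false) * phi p false ^ 2 := by ring
      _ = _ := by rw [q_phi_false hp0 hp1]
  rw [e1, e2, phi_true_sq hp0 hp1, phi_false_sq hp0 hp1]
  have hq : 1 - p ≠ 0 := by linarith
  have hp : p ≠ 0 := by linarith
  field_simp
  nlinarith

lemma phi_fourth {p : ℝ} (hp0 : 0 < p) (hp1 : p < 1) :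
    p * phi p true ^ 4 + (1 - p) * phi p false ^ 4 = (1 - 3 * sg p ^ 2) / sg p ^ 2 := by
  have h := sg_pos hp0 hp1
  have h2 := sg_sq hp0 hp1
  have e1 : phi p true ^ 4 = (phi p true ^ 2) ^ 2 := by ring
  have e2 : phi p false ^ 4 = (phi p false ^ 2) ^ 2 := by ring
  rw [e1, e2, phi_true_sq hp0 hp1, phi_false_sq hp0 hp1, h2]
  have hq : 1 - p ≠ 0 := by linarith
  have hp : p ≠ 0 := by linarith
  field_simp
  ring

/-- One Bonami induction step. -/
lemma bonami_step {p : ℝ} (hp0 : 0 < p) (hp1 : p < 1) (i : ι) {A C : (ι → Bool) → ℝ}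
    (hA : ∀ x b, A (Function.update x i b) = A x) (hC : ∀ x b, C (Function.update x i b) = C x) :
    ex p (fun x => (A x + phi p (x i) * C x) ^ 4) ≤
      ex p (fun x => A x ^ 4) + 8 * ex p (fun x => A x ^ 2 * C x ^ 2)
        + bB p * ex p (fun x => C x ^ 4) := by
  set κ := (1 - 2 * p) / sg p with hκ
  set M := (1 - 3 * sg p ^ 2) / sg p ^ 2 with hM
  have hs := sg_pos hp0 hp1
  have hs2 := sg_sq hp0 hp1
  have hexp : ∀ x, (A x + phi p (x i) * C x) ^ 4 = A x ^ 4
      + ((fun b => phi p b) (x i) * (4 * A x ^ 3 * C x)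
      + ((fun b => phi p b ^ 2) (x i) * (6 * A x ^ 2 * C x ^ 2)
      + ((fun b => phi p b ^ 3) (x i) * (4 * A x * C x ^ 3)
      + (fun b => phi p b ^ 4) (x i) * (C x ^ 4)))) := by
    intro x; ring
  rw [ex_congr p hexp, ex_add, ex_add, ex_add, ex_add]
  rw [ex_mul_indep p i (fun b => phi p b) (fun x => 4 * A x ^ 3 * C x)
    (fun x b => by simp only [hA, hC])]
  rw [ex_mul_indep p i (fun b => phi p b ^ 2) (fun x => 6 * A x ^ 2 * C x ^ 2)
    (fun x b => by simp only [hA, hC])]
  rw [ex_mul_indep p i (fun b => phi p b ^ 3) (fun x => 4 * A x * C x ^ 3)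
    (fun x b => by simp only [hA, hC])]
  rw [ex_mul_indep p i (fun b => phi p b ^ 4) (fun x => C x ^ 4)
    (fun x b => by simp only [hC])]
  rw [phi_mean hp0 hp1, phi_sq_mean hp0 hp1, phi_third hp0 hp1, phi_fourth hp0 hp1]
  rw [← hκ, ← hM]
  have h6 : ex p (fun x => 6 * A x ^ 2 * C x ^ 2) = 6 * ex p (fun x => A x ^ 2 * C x ^ 2) := by
    rw [← ex_const_mul]; exact ex_congr p (fun x => by ring)
  have h4 : κ * ex p (fun x => 4 * A x * C x ^ 3)
      ≤ 2 * ex p (fun x => A x ^ 2 * C x ^ 2) + 2 * κ ^ 2 * ex p (fun x => C x ^ 4) := by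
    rw [← ex_const_mul, ← ex_const_mul, ← ex_const_mul, ← ex_add]
    refine ex_mono hp0.le hp1.le (fun x => ?_)
    nlinarith [mul_nonneg (sq_nonneg (C x)) (sq_nonneg (A x - κ * C x))]
  have hC4 : 0 ≤ ex p (fun x => C x ^ 4) :=
    ex_nonneg hp0.le hp1.le (fun x => by positivity)
  have hκ2 : 2 * κ ^ 2 + M ≤ bB p := by
    rw [hκ, hM]
    unfold bB
    have : (1 - 2 * p) ^ 2 = 1 - 4 * sg p ^ 2 := by rw [hs2]; ring
    rw [div_pow, this]
    have hpos : 0 < sg p ^ 2 := by positivity
    have e : 2 * ((1 - 4 * sg p ^ 2) / sg p ^ 2) + (1 - 3 * sg p ^ 2) / sg p ^ 2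
        = (3 - 11 * sg p ^ 2) / sg p ^ 2 := by
      field_simp; ring
    rw [e]
    apply div_le_div_of_nonneg_right _ hpos.le
    nlinarith
  have : (2 * κ ^ 2 + M) * ex p (fun x => C x ^ 4) ≤ bB p * ex p (fun x => C x ^ 4) :=
    mul_le_mul_of_nonneg_right hκ2 hC4
  rw [h6]
  nlinarith

/-- The biased Bonami inequality, with the support in a set of coordinates. -/
theorem bonami_aux {p : ℝ} (hp0 : 0 < p) (hp1 : p < 1) (s : Finset ι) :
    ∀ (k : ℕ) (c : Finset ι → ℝ), (∀ S, c S ≠ 0 → S ⊆ s ∧ S.card ≤ k) →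
      ex p (fun x => poly p c x ^ 4) ≤ bB p ^ k * (∑ S, c S ^ 2) ^ 2 := by
  have hB16 := bB_ge hp0 hp1
  have hB0 : 0 < bB p := by linarith
  induction s using Finset.induction_on with
  | empty =>
    intro k c hc
    have hc' : ∀ S, S ≠ ∅ → c S = 0 := by
      intro S hS
      by_contra h
      exact hS (Finset.subset_empty.mp (hc S h).1)
    have hpoly : ∀ x, poly p c x = c ∅ := by
      intro x
      unfold poly
      rw [Finset.sum_eq_single (∅ : Finset ι)]
      · simp
      · intro S _ hS; rw [hc' S hS]; ring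
      · simp
    have hsum : ∑ S, c S ^ 2 = c ∅ ^ 2 := by
      rw [Finset.sum_eq_single (∅ : Finset ι)]
      · intro S _ hS; rw [hc' S hS]; ring
      · simp
    rw [ex_congr p (fun x => by rw [hpoly x]), ex_const, hsum]
    have : 1 ≤ bB p ^ k := one_le_pow₀ (by linarith)
    have h0 : 0 ≤ (c ∅ ^ 2) ^ 2 := by positivity
    calc c ∅ ^ 4 = 1 * (c ∅ ^ 2) ^ 2 := by ring
      _ ≤ _ := mul_le_mul_of_nonneg_right this h0
  | insert i s hi ih =>
    intro k c hc
    set a : Finset ι → ℝ := fun S => if i ∈ S then 0 else c S with ha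
    set b : Finset ι → ℝ := fun S => if i ∈ S then 0 else c (insert i S) with hb
    have hpoly : ∀ x, poly p c x = poly p a x + phi p (x i) * poly p b x := by
      intro x
      unfold poly
      rw [sum_finset_split i, Finset.mul_sum, ← Finset.sum_add_distrib]
      refine Finset.sum_congr rfl (fun S _ => ?_)
      by_cases h : i ∈ S
      · simp [ha, hb, h]
      · simp only [ha, hb, h, if_false, chi_insert p h]; ring
    have hsum : ∑ S, c S ^ 2 = ∑ S, a S ^ 2 + ∑ S, b S ^ 2 := by
      rw [sum_finset_split i, ← Finset.sum_add_distrib]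
      refine Finset.sum_congr rfl (fun S _ => ?_)
      by_cases h : i ∈ S
      · simp [ha, hb, h]
      · simp [ha, hb, h]
    have hAindep : ∀ x b', poly p a (Function.update x i b') = poly p a x := by
      intro x b'
      unfold poly
      refine Finset.sum_congr rfl (fun S _ => ?_)
      by_cases h : i ∈ S
      · simp [ha, h]
      · rw [chi_update p h]
    have hCindep : ∀ x b', poly p b (Function.update x i b') = poly p b x := by
      intro x b'
      unfold poly
      refine Finset.sum_congr rfl (fun S _ => ?_)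
      by_cases h : i ∈ S
      · simp [hb, h]
      · rw [chi_update p h]
    have hasupp : ∀ k', (∀ S, c S ≠ 0 → S.card ≤ k') → ∀ S, a S ≠ 0 → S ⊆ s ∧ S.card ≤ k' := by
      intro k' hk' S hS
      by_cases h : i ∈ S
      · simp [ha, h] at hS
      · simp only [ha, h, if_false] at hS
        refine ⟨?_, hk' S hS⟩
        have := (hc S hS).1
        intro j hj
        have hj' := this hj
        rcases Finset.mem_insert.mp hj' with rfl | h'
        · exact absurd hj h
        · exact h'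
    have hcard : ∀ S, c S ≠ 0 → S.card ≤ k := fun S hS => (hc S hS).2
    cases k with
    | zero =>
      have hb0 : ∀ S, b S = 0 := by
        intro S
        by_contra hS
        by_cases h : i ∈ S
        · simp [hb, h] at hS
        · simp only [hb, h, if_false] at hS
          have := (hc _ hS).2
          simp at this
      have hpoly' : ∀ x, poly p c x = poly p a x := by
        intro x
        rw [hpoly x]
        have : poly p b x = 0 := by
          unfold poly
          simp [hb0]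
        rw [this]; ring
      have hsum' : ∑ S, c S ^ 2 = ∑ S, a S ^ 2 := by
        rw [hsum]; simp [hb0]
      rw [ex_congr p (fun x => by rw [hpoly' x]), hsum']
      exact ih 0 a (hasupp 0 hcard)
    | succ k' =>
      have hbsupp : ∀ S, b S ≠ 0 → S ⊆ s ∧ S.card ≤ k' := by
        intro S hS
        by_cases h : i ∈ S
        · simp [hb, h] at hS
        · simp only [hb, h, if_false] at hS
          obtain ⟨h1, h2⟩ := hc _ hS
          rw [Finset.card_insert_of_notMem h] at h2
          refine ⟨?_, by omega⟩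
          intro j hj
          have hj' := h1 (Finset.mem_insert_of_mem hj)
          rcases Finset.mem_insert.mp hj' with rfl | h'
          · exact absurd hj h
          · exact h'
      have hE1 := ih (k' + 1) a (hasupp (k' + 1) hcard)
      have hE3 := ih k' b hbsupp
      have hstep := bonami_step hp0 hp1 i hAindep hCindep
      rw [ex_congr p (fun x => by rw [hpoly x]), hsum]
      set A₂ := ∑ S, a S ^ 2 with hA₂
      set C₂ := ∑ S, b S ^ 2 with hC₂
      have hA₂0 : 0 ≤ A₂ := Finset.sum_nonneg (fun _ _ => sq_nonneg _)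
      have hC₂0 : 0 ≤ C₂ := Finset.sum_nonneg (fun _ _ => sq_nonneg _)
      set E₁ := ex p (fun x => poly p a x ^ 4) with hE₁
      set E₃ := ex p (fun x => poly p b x ^ 4) with hE₃
      set X := ex p (fun x => poly p a x ^ 2 * poly p b x ^ 2) with hX
      have hE₁0 : 0 ≤ E₁ := ex_nonneg hp0.le hp1.le (fun x => by positivity)
      have hE₃0 : 0 ≤ E₃ := ex_nonneg hp0.le hp1.le (fun x => by positivity)
      have hX0 : 0 ≤ X := ex_nonneg hp0.le hp1.le (fun x => by positivity)
      have hCS : X ^ 2 ≤ E₁ * E₃ :=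
        ex_sq_le_mul hp0.le hp1.le (fun x => by positivity) (fun x => by positivity)
          (fun x => by apply le_of_eq; ring)
      set P := bB p ^ k' with hP
      have hP0 : 0 < P := by positivity
      have hPs : bB p ^ (k' + 1) = bB p * P := by rw [hP]; ring
      rw [hPs] at hE1 ⊢
      have hXle : X ≤ bB p * P * A₂ * C₂ / 4 := by
        have h1 : X ^ 2 ≤ (bB p * P * A₂ * C₂ / 4) ^ 2 := by
          calc X ^ 2 ≤ E₁ * E₃ := hCS
            _ ≤ (bB p * P * A₂ ^ 2) * (P * C₂ ^ 2) :=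
                mul_le_mul hE1 hE3 hE₃0 (by positivity)
            _ = bB p * (P * A₂ * C₂) ^ 2 := by ring
            _ ≤ (bB p) ^ 2 / 16 * (P * A₂ * C₂) ^ 2 := by
                apply mul_le_mul_of_nonneg_right _ (sq_nonneg _)
                nlinarith
            _ = _ := by ring
        have h2 : 0 ≤ bB p * P * A₂ * C₂ / 4 := by positivity
        exact (abs_le_of_sq_le_sq' h1 h2).2
      have h3 : bB p * E₃ ≤ bB p * (P * C₂ ^ 2) := mul_le_mul_of_nonneg_left hE3 hB0.le
      calc _ ≤ E₁ + 8 * X + bB p * E₃ := hstep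
        _ ≤ bB p * P * A₂ ^ 2 + 8 * (bB p * P * A₂ * C₂ / 4) + bB p * (P * C₂ ^ 2) := by
            linarith
        _ = _ := by ring

/-- The biased Bonami inequality. -/
theorem bonami {p : ℝ} (hp0 : 0 < p) (hp1 : p < 1) (k : ℕ) (c : Finset ι → ℝ)
    (hc : ∀ S, c S ≠ 0 → S.card ≤ k) :
    ex p (fun x => poly p c x ^ 4) ≤ bB p ^ k * (∑ S, c S ^ 2) ^ 2 :=
  bonami_aux hp0 hp1 Finset.univ k c (fun S hS => ⟨Finset.subset_univ S, hc S hS⟩)

end Crest.Agent.SharpSym
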