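import Crest.Agent.Lib.SharpSym.Bound

/-!
# Boolean functions: the indicator, its variance and influences; the error term
-/

set_option autoImplicit false

namespace Crest.Agent.SharpSym

open Finset Crest.CombinatoricsR.HypergraphCube Crest.FinProb

/-- The real indicator of a Boolean function. -/
def ind {ι : Type*} (f : (ι → Bool) → Bool) (x : ι → Bool) : ℝ := if f x = true then 1 else 0

section
variable {ι : Type*} [Fintype ι] [DecidableEq ι]

lemma ind_bounds (f : (ι → Bool) → Bool) (x : ι → Bool) : 0 ≤ ind f x ∧ ind f x ≤ 1 := by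
  unfold ind; split_ifs <;> norm_num

lemma ind_sq (f : (ι → Bool) → Bool) (x : ι → Bool) : ind f x ^ 2 = ind f x := by
  unfold ind; split_ifs <;> norm_num

lemma bernoulliProb_eq_ex (p : ℝ) (E : Set (ι → Bool)) :
    bernoulliProb p E = ex p (fun x => @ite ℝ (x ∈ E) (Classical.propDecidable _) 1 0) := by
  unfold bernoulliProb ex
  rw [Finset.sum_filter]
  refine Finset.sum_congr rfl (fun x _ => ?_)
  by_cases h : x ∈ E <;> simp [h]

lemma ex_ind (p : ℝ) (f : (ι → Bool) → Bool) :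
    ex p (ind f) = bernoulliProb p {x | f x = true} := by
  rw [bernoulliProb_eq_ex]
  refine ex_congr p (fun x => ?_)
  unfold ind
  by_cases h : f x = true <;> simp [h]

lemma piv_ind (p : ℝ) (f : (ι → Bool) → Bool) (e : ι) :
    piv p e (ind f) =
      bernoulliProb p {x | f (Function.update x e true) ≠ f (Function.update x e false)} := by
  rw [bernoulliProb_eq_ex]
  unfold piv
  refine ex_congr p (fun x => ?_)
  unfold dd ind
  cases h1 : f (Function.update x e true) <;> cases h2 : f (Function.update x e false) <;>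
    simp [h1, h2]

lemma var_ind (p : ℝ) (f : (ι → Bool) → Bool) :
    ex p (fun x => ind f x ^ 2) - ex p (ind f) ^ 2
      = ex p (ind f) * (1 - ex p (ind f)) := by
  rw [ex_congr p (ind_sq f)]
  ring

end

variable {n r : ℕ}

lemma totI_ind (p : ℝ) (f : (HyperedgeSlot n r → Bool) → Bool) :
    totI (ind f) p = totalInfluence p f := by
  unfold totI totalInfluence pivotalInfluence
  exact Finset.sum_congr rfl (fun e _ => piv_ind p f e)

lemma ex_ind_hyper (p : ℝ) (f : (HyperedgeSlot n r → Bool) → Bool) :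
    ex p (ind f) = probTrue p f := ex_ind p f

lemma ind_symm {f : (HyperedgeSlot n r → Bool) → Bool} (hf : IsSymmetric f)
    (σ : Equiv.Perm (Fin n)) (x : HyperedgeSlot n r → Bool) : ind f (relabel σ x) = ind f x := by
  unfold ind
  rw [hf σ x]

/-- Polynomial versus exponential decay. -/
lemma pow_mul_exp_neg_le {x c : ℝ} (hx : 0 ≤ x) (hc : 0 < c) (k : ℕ) :
    x ^ k * Real.exp (- x / c) ≤ k.factorial * c ^ k := by
  have h1 := Real.pow_div_factorial_le_exp (x := x / c) (by positivity) k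
  have hf : (0 : ℝ) < k.factorial := by exact_mod_cast Nat.factorial_pos k
  have h2 : Real.exp (- x / c) = (Real.exp (x / c))⁻¹ := by
    rw [← Real.exp_neg]; congr 1; ring
  rw [h2, ← div_eq_mul_inv, div_le_iff₀ (Real.exp_pos _)]
  rw [div_pow, div_div, div_le_iff₀ (by positivity)] at h1
  calc x ^ k ≤ _ := h1
    _ = _ := by ring

/-- The error term. -/
lemma err_bound {r : ℕ} (hr : 2 ≤ r) {ℓ : ℝ} (hℓ : 1 ≤ ℓ) :
    8 * ℓ ^ 2 * Real.exp (- ℓ / 8) + 128 * ℓ ^ 4 * Real.exp (- ℓ / 2)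
      ≤ 6684672 / ℓ ^ gam r := by
  have hℓ0 : 0 < ℓ := by linarith
  have hγ : ℓ ^ gam r ≤ ℓ ^ 2 := by
    have : ℓ ^ (2 : ℕ) = ℓ ^ (2 : ℝ) := by rw [← Real.rpow_natCast]; norm_num
    rw [this]
    exact Real.rpow_le_rpow_of_exponent_le hℓ (gam_le_two hr)
  have hγ0 : 0 < ℓ ^ gam r := by positivity
  rw [le_div_iff₀ hγ0]
  have h1 := pow_mul_exp_neg_le hℓ0.le (c := 8) (by norm_num) 4
  have h2 := pow_mul_exp_neg_le hℓ0.le (c := 2) (by norm_num) 6
  norm_num [Nat.factorial] at h1 h2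
  have he1 := Real.exp_pos (- ℓ / 8)
  have he2 := Real.exp_pos (- ℓ / 2)
  have h3 : (8 * ℓ ^ 2 * Real.exp (- ℓ / 8) + 128 * ℓ ^ 4 * Real.exp (- ℓ / 2)) * ℓ ^ gam r
      ≤ (8 * ℓ ^ 2 * Real.exp (- ℓ / 8) + 128 * ℓ ^ 4 * Real.exp (- ℓ / 2)) * ℓ ^ 2 :=
    mul_le_mul_of_nonneg_left hγ (by positivity)
  refine h3.trans ?_
  have e : (8 * ℓ ^ 2 * Real.exp (- ℓ / 8) + 128 * ℓ ^ 4 * Real.exp (- ℓ / 2)) * ℓ ^ 2
      = 8 * (ℓ ^ 4 * Real.exp (- ℓ / 8)) + 128 * (ℓ ^ 6 * Real.exp (- ℓ / 2)) := by ring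
  rw [e]
  norm_num at h1 h2 ⊢
  linarith

end Crest.Agent.SharpSym
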