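import Crest.Agent.Lib.SharpSym.Degree

/-!
# The main inequality with explicit parameters
-/

set_option autoImplicit false

namespace Crest.Agent.SharpSym

open Finset Crest.CombinatoricsR.HypergraphCube

variable {n r : ℕ}

lemma log_bB_ge_one {p : ℝ} (hp0 : 0 < p) (hp1 : p < 1) : 1 ≤ Real.log (bB p) := by
  have h := bB_ge hp0 hp1
  rw [Real.le_log_iff_exp_le (by linarith)]
  have := Real.exp_one_lt_d9
  linarith

lemma sg_sq_mul_log_sq {p : ℝ} (hp0 : 0 < p) (hp1 : p < 1) :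
    sg p ^ 2 * Real.log (bB p) ^ 2 ≤ 16 := by
  have hB := bB_ge hp0 hp1
  have hB0 : 0 < bB p := by linarith
  have hs := sg_pos hp0 hp1
  have hL := log_bB_ge_one hp0 hp1
  have h1 : Real.log (bB p) ≤ 2 * Real.sqrt (bB p) := by
    have h2 : Real.log (Real.sqrt (bB p)) ≤ Real.sqrt (bB p) - 1 :=
      Real.log_le_sub_one_of_pos (Real.sqrt_pos.mpr hB0)
    rw [Real.log_sqrt hB0.le] at h2
    linarith
  have h3 : Real.log (bB p) ^ 2 ≤ 4 * bB p := by
    have h4 : Real.log (bB p) ^ 2 ≤ (2 * Real.sqrt (bB p)) ^ 2 :=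
      pow_le_pow_left₀ (by linarith) h1 2
    have h5 : (2 * Real.sqrt (bB p)) ^ 2 = 4 * bB p := by
      rw [mul_pow, Real.sq_sqrt hB0.le]; ring
    linarith
  have h6 : sg p ^ 2 * bB p = 4 := by
    unfold bB; field_simp
  calc sg p ^ 2 * Real.log (bB p) ^ 2 ≤ sg p ^ 2 * (4 * bB p) :=
        mul_le_mul_of_nonneg_left h3 (by positivity)
    _ = 4 * (sg p ^ 2 * bB p) := by ring
    _ = 16 := by rw [h6]; norm_num

variable (F : (HyperedgeSlot n r → Bool) → ℝ)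

/-- The main inequality with explicit parameters. -/
theorem main_bound (hr : 2 ≤ r) (hn : 3 ≤ n) {p : ℝ} (hp0 : 0 < p) (hp1 : p < 1)
    (hF : ∀ x, 0 ≤ F x ∧ F x ≤ 1)
    (hsym : ∀ (σ : Equiv.Perm (Fin n)) x, F (relabel σ x) = F x) :
    ex p (fun x => F x ^ 2) - ex p F ^ 2 ≤
      (256 * r / Real.log n ^ gam r
        + 8 * Real.log n ^ 2 * Real.exp (- Real.log n / 8)
        + 128 * Real.log n ^ 4 * Real.exp (- Real.log n / 2)) * totI F p := by
  classical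
  set ℓ := Real.log n with hℓ
  have hn3 : (3 : ℝ) ≤ n := by exact_mod_cast hn
  have hn0 : (0 : ℝ) < n := by linarith
  have hℓ1 : 1 ≤ ℓ := by
    rw [hℓ, Real.le_log_iff_exp_le hn0]
    have := Real.exp_one_lt_d9
    linarith
  have hℓ0 : 0 < ℓ := by linarith
  have hexpℓ : Real.exp ℓ = n := Real.exp_log hn0
  have hs := sg_pos hp0 hp1
  have hs2 := sg_sq_le hp0 hp1
  have hB := bB_ge hp0 hp1
  have hB0 : 0 < bB p := by linarith
  set L := Real.log (bB p) with hLdef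
  have hL1 : 1 ≤ L := log_bB_ge_one hp0 hp1
  have hL0 : 0 < L := by linarith
  have hσL := sg_sq_mul_log_sq hp0 hp1
  rw [← hLdef] at hσL
  have hI0 : 0 ≤ totI F p := Finset.sum_nonneg (fun e _ => piv_nonneg hp0 hp1 e F)
  -- the parameters
  set d0 : ℕ := ⌊ℓ / (4 * L)⌋₊ with hd0def
  set d : ℕ := d0 + 1 with hddef
  have hd1 : 1 ≤ d := by omega
  have hdR1 : (1 : ℝ) ≤ d := by exact_mod_cast hd1
  have hdR0 : (0 : ℝ) < d := by linarith
  have hq0 : 0 ≤ ℓ / (4 * L) := by positivity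
  have hd0le : (d0 : ℝ) ≤ ℓ / (4 * L) := Nat.floor_le hq0
  have hdlow : ℓ / (4 * L) ≤ d := by
    have := Nat.lt_floor_add_one (ℓ / (4 * L))
    rw [← hd0def] at this
    simp only [hddef]; push_cast; linarith
  have hdsub : d - 1 = d0 := by omega
  have hdup : (d : ℝ) ≤ 2 * ℓ := by
    have h1 : ℓ / (4 * L) ≤ ℓ := by
      rw [div_le_iff₀ (by positivity)]
      nlinarith
    have h2 : (d : ℝ) = d0 + 1 := by simp [hddef]
    linarith
  -- powers of B
  have hBpow : bB p ^ (d - 1) ≤ Real.exp (ℓ / 4) := by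
    rw [hdsub]
    have h1 : bB p ^ d0 = Real.exp (d0 * L) := by
      rw [Real.exp_nat_mul, hLdef, Real.exp_log hB0]
    rw [h1]
    apply Real.exp_le_exp.mpr
    have h2 : (d0 : ℝ) * L ≤ ℓ / (4 * L) * L := mul_le_mul_of_nonneg_right hd0le hL0.le
    have h3 : ℓ / (4 * L) * L = ℓ / 4 := by field_simp
    linarith
  set τ := Real.exp (-ℓ / 2) with hτdef
  set η := Real.exp (-ℓ / 8) with hηdef
  have hτ : 0 < τ := Real.exp_pos _
  have hη : 0 < η := Real.exp_pos _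
  have hτη : τ * bB p ^ (d - 1) ≤ η ^ 2 := by
    have h1 : τ * bB p ^ (d - 1) ≤ τ * Real.exp (ℓ / 4) := mul_le_mul_of_nonneg_left hBpow hτ.le
    have h2 : τ * Real.exp (ℓ / 4) = η ^ 2 := by
      rw [hτdef, hηdef, ← Real.exp_add, sq, ← Real.exp_add]
      congr 1; ring
    linarith
  -- the set size
  set m : ℕ := (n - 1) / (2 * d ^ 2) + 1 with hmdef
  have hm1 : 1 ≤ m := Nat.le_add_left _ _
  have hmn : m ≤ n := by
    have h1 : (n - 1) / (2 * d ^ 2) ≤ n - 1 := Nat.div_le_self _ _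
    omega
  have hcount : 2 * (d ^ 2 - 1) * (m - 1) ≤ n - 1 := by
    have h1 : m - 1 = (n - 1) / (2 * d ^ 2) := by omega
    rw [h1]
    have h2 : 2 * d ^ 2 * ((n - 1) / (2 * d ^ 2)) ≤ n - 1 := Nat.mul_div_le _ _
    refine le_trans ?_ h2
    exact Nat.mul_le_mul_right _ (Nat.mul_le_mul_left _ (Nat.sub_le _ _))
  have hmR0 : (0 : ℝ) < m := by exact_mod_cast hm1
  have hnm : (n : ℝ) ≤ 4 * d ^ 2 * m := by
    have h1 : n - 1 < 2 * d ^ 2 * m := by
      have hpos : 0 < 2 * d ^ 2 := by positivity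
      have := Nat.lt_mul_div_succ (n - 1) hpos
      simpa [hmdef] using this
    have h2 : n ≤ 2 * (n - 1) := by omega
    have h3 : n < 2 * (2 * d ^ 2 * m) := by omega
    have h4 : (n : ℝ) < 2 * (2 * d ^ 2 * m) := by exact_mod_cast h3
    linarith
  -- K
  set K : ℝ := (d : ℝ) ^ gam r / r with hKdef
  have hr0 : (0 : ℝ) < r := by
    have : 0 < r := by omega
    exact_mod_cast this
  have hK : 0 < K := by positivity
  have hmain := main_ineq F hp0 hp1 hF hsym d m hm1 hmn (d ^ 2) K hK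
    (fun S hS hcard => low_deg hr hd1 S hS hcard) hcount hτ hη.le hτη
  refine hmain.trans (mul_le_mul_of_nonneg_right ?_ hI0)
  -- the first term
  have hγ1 := one_le_gam hr
  have hγ2 := gam_le_two hr
  have hγ0 : 0 < gam r := by linarith
  have hT1 : sg p ^ 2 / K ≤ 256 * r / ℓ ^ gam r := by
    have hℓγ : 0 < ℓ ^ gam r := by positivity
    have h1 : (ℓ / (4 * L)) ^ gam r ≤ (d : ℝ) ^ gam r :=
      Real.rpow_le_rpow hq0 hdlow hγ0.le
    have h2 : (ℓ / (4 * L)) ^ gam r = ℓ ^ gam r / (4 * L) ^ gam r :=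
      Real.div_rpow hℓ0.le (by positivity) _
    have h3 : (4 * L) ^ gam r ≤ (4 * L) ^ (2 : ℕ) := by
      have : (4 * L) ^ (2 : ℕ) = (4 * L) ^ (2 : ℝ) := by
        rw [← Real.rpow_natCast]; norm_num
      rw [this]
      exact Real.rpow_le_rpow_of_exponent_le (by linarith) hγ2
    have h4L : 0 < (4 * L) ^ gam r := by positivity
    have h5 : sg p ^ 2 * (4 * L) ^ gam r ≤ 256 := by
      calc sg p ^ 2 * (4 * L) ^ gam r ≤ sg p ^ 2 * (4 * L) ^ (2 : ℕ) :=
            mul_le_mul_of_nonneg_left h3 (by positivity)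
        _ = 16 * (sg p ^ 2 * L ^ 2) := by ring
        _ ≤ 256 := by linarith
    have hdγ : 0 < (d : ℝ) ^ gam r := by positivity
    have e : sg p ^ 2 / K = sg p ^ 2 * r / (d : ℝ) ^ gam r := by
      rw [hKdef]; field_simp
    rw [e, div_le_div_iff₀ hdγ hℓγ]
    have h6 : ℓ ^ gam r ≤ (d : ℝ) ^ gam r * (4 * L) ^ gam r := by
      rw [h2, div_le_iff₀ h4L] at h1
      exact h1
    calc sg p ^ 2 * r * ℓ ^ gam r
        ≤ sg p ^ 2 * r * ((d : ℝ) ^ gam r * (4 * L) ^ gam r) :=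
          mul_le_mul_of_nonneg_left h6 (by positivity)
      _ = r * (sg p ^ 2 * (4 * L) ^ gam r) * (d : ℝ) ^ gam r := by ring
      _ ≤ r * 256 * (d : ℝ) ^ gam r :=
          mul_le_mul_of_nonneg_right (mul_le_mul_of_nonneg_left h5 hr0.le) hdγ.le
      _ = _ := by ring
  -- the error terms
  have hnm2 : (n : ℝ) / m ≤ 4 * d ^ 2 := by
    rw [div_le_iff₀ hmR0]; exact hnm
  have hmi : 1 / (m : ℝ) ≤ 4 * d ^ 2 / n := by
    rw [div_le_div_iff₀ hmR0 hn0]
    linarith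
  have hT2 : (2 * (n : ℝ) / m) * (sg p ^ 2 * η) ≤ 8 * ℓ ^ 2 * η := by
    have h1 : 2 * (n : ℝ) / m ≤ 8 * d ^ 2 := by
      have : 2 * (n : ℝ) / m = 2 * ((n : ℝ) / m) := by ring
      rw [this]; linarith
    have h2 : (d : ℝ) ^ 2 ≤ (2 * ℓ) ^ 2 := pow_le_pow_left₀ hdR0.le hdup 2
    have hση : sg p ^ 2 * η ≤ 1 / 4 * η := mul_le_mul_of_nonneg_right hs2 hη.le
    calc (2 * (n : ℝ) / m) * (sg p ^ 2 * η) ≤ (8 * d ^ 2) * (1 / 4 * η) :=
          mul_le_mul h1 hση (by positivity) (by positivity)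
      _ = 2 * d ^ 2 * η := by ring
      _ ≤ 2 * (2 * ℓ) ^ 2 * η := by
          apply mul_le_mul_of_nonneg_right _ hη.le
          linarith
      _ = _ := by ring
  have hT3 : (2 * (n : ℝ) / m) * (1 / (4 * m * τ)) ≤ 128 * ℓ ^ 4 * τ := by
    have e : (2 * (n : ℝ) / m) * (1 / (4 * m * τ))
        = ((n : ℝ) / m) * (1 / (m : ℝ)) * (1 / (2 * τ)) := by
      field_simp; ring
    rw [e]
    have h0 : 0 ≤ 1 / (m : ℝ) := by positivity
    have h1 : ((n : ℝ) / m) * (1 / (m : ℝ)) ≤ (4 * d ^ 2) * (4 * d ^ 2 / n) :=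
      mul_le_mul hnm2 hmi h0 (by positivity)
    have h2 : (1 : ℝ) / (2 * τ) = τ * n / 2 := by
      have : τ * τ * n = 1 := by
        rw [hτdef, ← hexpℓ, ← Real.exp_add, ← Real.exp_add]
        rw [show -ℓ / 2 + -ℓ / 2 + ℓ = 0 by ring, Real.exp_zero]
      field_simp
      nlinarith
    rw [h2]
    have h3 : (d : ℝ) ^ 4 ≤ (2 * ℓ) ^ 4 := pow_le_pow_left₀ hdR0.le hdup 4
    calc ((n : ℝ) / m) * (1 / (m : ℝ)) * (τ * n / 2)
        ≤ ((4 * d ^ 2) * (4 * d ^ 2 / n)) * (τ * n / 2) :=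
          mul_le_mul_of_nonneg_right h1 (by positivity)
      _ = 8 * d ^ 4 * τ := by
          field_simp
          ring
      _ ≤ 8 * (2 * ℓ) ^ 4 * τ := by
          apply mul_le_mul_of_nonneg_right _ hτ.le
          linarith
      _ = _ := by ring
  have hsplit : (2 * (n : ℝ) / m) * (sg p ^ 2 * η + 1 / (4 * m * τ))
      = (2 * (n : ℝ) / m) * (sg p ^ 2 * η) + (2 * (n : ℝ) / m) * (1 / (4 * m * τ)) := by
    ring
  rw [hsplit]
  linarith

end Crest.Agent.SharpSym
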