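import Mathlib
import Crest.Prelude.Def_FinProb

/-!
# The p-biased cube: expectation, Fourier expansion, Parseval

All sums are explicit finite sums over `ι → Bool`.
-/

set_option autoImplicit false

namespace Crest.Agent.SharpSym

open Finset Crest.FinProb

variable {ι : Type*} [Fintype ι] [DecidableEq ι]

/-- Expectation under independent coins of bias `p`. -/
noncomputable def ex (p : ℝ) (g : (ι → Bool) → ℝ) : ℝ := ∑ x, bernoulliWeight p x * g x

lemma ex_congr (p : ℝ) {g h : (ι → Bool) → ℝ} (H : ∀ x, g x = h x) : ex p g = ex p h := by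
  unfold ex; exact Finset.sum_congr rfl (fun x _ => by rw [H x])

lemma ex_add (p : ℝ) (g h : (ι → Bool) → ℝ) :
    ex p (fun x => g x + h x) = ex p g + ex p h := by
  unfold ex; rw [← Finset.sum_add_distrib]; exact Finset.sum_congr rfl (fun x _ => by ring)

lemma ex_sub (p : ℝ) (g h : (ι → Bool) → ℝ) :
    ex p (fun x => g x - h x) = ex p g - ex p h := by
  unfold ex; rw [← Finset.sum_sub_distrib]; exact Finset.sum_congr rfl (fun x _ => by ring)

lemma ex_const_mul (p : ℝ) (c : ℝ) (g : (ι → Bool) → ℝ) :
    ex p (fun x => c * g x) = c * ex p g := by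
  unfold ex; rw [Finset.mul_sum]; exact Finset.sum_congr rfl (fun x _ => by ring)

lemma ex_mul_const (p : ℝ) (c : ℝ) (g : (ι → Bool) → ℝ) :
    ex p (fun x => g x * c) = ex p g * c := by
  unfold ex; rw [Finset.sum_mul]; exact Finset.sum_congr rfl (fun x _ => by ring)

lemma ex_sum {κ : Type*} (p : ℝ) (s : Finset κ) (g : κ → (ι → Bool) → ℝ) :
    ex p (fun x => ∑ k ∈ s, g k x) = ∑ k ∈ s, ex p (g k) := by
  unfold ex
  simp_rw [Finset.mul_sum]
  rw [Finset.sum_comm]

lemma weight_nonneg {p : ℝ} (hp0 : 0 ≤ p) (hp1 : p ≤ 1) (x : ι → Bool) :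
    0 ≤ bernoulliWeight p x := by
  unfold bernoulliWeight
  refine Finset.prod_nonneg (fun i _ => ?_)
  split_ifs <;> linarith

lemma weight_pos {p : ℝ} (hp0 : 0 < p) (hp1 : p < 1) (x : ι → Bool) :
    0 < bernoulliWeight p x := by
  unfold bernoulliWeight
  refine Finset.prod_pos (fun i _ => ?_)
  split_ifs <;> linarith

lemma ex_nonneg {p : ℝ} (hp0 : 0 ≤ p) (hp1 : p ≤ 1) {g : (ι → Bool) → ℝ} (hg : ∀ x, 0 ≤ g x) :
    0 ≤ ex p g :=
  Finset.sum_nonneg (fun x _ => mul_nonneg (weight_nonneg hp0 hp1 x) (hg x))

lemma ex_mono {p : ℝ} (hp0 : 0 ≤ p) (hp1 : p ≤ 1) {g h : (ι → Bool) → ℝ} (hg : ∀ x, g x ≤ h x) :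
    ex p g ≤ ex p h :=
  Finset.sum_le_sum (fun x _ => mul_le_mul_of_nonneg_left (hg x) (weight_nonneg hp0 hp1 x))

/-- Product formula: the expectation of a product of coordinate functions. -/
lemma ex_prod (p : ℝ) (ψ : ι → Bool → ℝ) :
    ex p (fun x => ∏ i, ψ i (x i)) = ∏ i, (p * ψ i true + (1 - p) * ψ i false) := by
  classical
  unfold ex bernoulliWeight
  have h1 : ∀ i : ι, p * ψ i true + (1 - p) * ψ i false
      = ∑ b ∈ (Finset.univ : Finset Bool), (if b then p else 1 - p) * ψ i b := by
    intro i
    simp [Fintype.sum_bool]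
  simp_rw [h1]
  rw [Finset.prod_univ_sum]
  simp only [Fintype.piFinset_univ]
  refine Finset.sum_congr rfl (fun x _ => ?_)
  rw [Finset.prod_mul_distrib]

lemma ex_one (p : ℝ) : ex p (fun _ : ι → Bool => (1 : ℝ)) = 1 := by
  have := ex_prod (ι := ι) p (fun _ _ => (1 : ℝ))
  simpa using this

lemma ex_const (p c : ℝ) : ex p (fun _ : ι → Bool => c) = c := by
  have := ex_const_mul (ι := ι) p c (fun _ => 1)
  simpa [ex_one] using this

/-- `sum_weight = 1`. -/
lemma sum_weight (p : ℝ) : ∑ x : ι → Bool, bernoulliWeight p x = 1 := by
  have := ex_one (ι := ι) p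
  simpa [ex] using this

/-- The weight of `x` splits as the factor at `i` times the rest. -/
lemma weight_split (p : ℝ) (i : ι) (x : ι → Bool) :
    bernoulliWeight p x = (if x i then p else 1 - p) *
      ∏ j ∈ Finset.univ.erase i, (if x j then p else 1 - p) := by
  unfold bernoulliWeight
  rw [Finset.mul_prod_erase Finset.univ (fun j => if x j then p else 1 - p) (Finset.mem_univ i)]

/-- Flip of coordinate `i`. -/
def flip (i : ι) (x : ι → Bool) : ι → Bool := Function.update x i (!x i)

lemma flip_flip (i : ι) (x : ι → Bool) : flip i (flip i x) = x := by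
  funext j
  by_cases h : j = i
  · subst h; simp [flip]
  · simp [flip, Function.update_of_ne h]

/-- Flip as an equivalence. -/
def flipEquiv (i : ι) : (ι → Bool) ≃ (ι → Bool) where
  toFun := flip i
  invFun := flip i
  left_inv := flip_flip i
  right_inv := flip_flip i

lemma rest_flip (p : ℝ) (i : ι) (x : ι → Bool) :
    ∏ j ∈ Finset.univ.erase i, (if flip i x j then p else 1 - p)
      = ∏ j ∈ Finset.univ.erase i, (if x j then p else 1 - p) := by
  refine Finset.prod_congr rfl (fun j hj => ?_)
  have : j ≠ i := Finset.ne_of_mem_erase hj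
  simp [flip, Function.update_of_ne this]

/-- The weight excluding coordinate `i`. -/
noncomputable def rest (p : ℝ) (i : ι) (x : ι → Bool) : ℝ :=
  ∏ j ∈ Finset.univ.erase i, (if x j then p else 1 - p)

lemma rest_update (p : ℝ) (i : ι) (x : ι → Bool) (b : Bool) :
    rest p i (Function.update x i b) = rest p i x := by
  unfold rest
  refine Finset.prod_congr rfl (fun j hj => ?_)
  have : j ≠ i := Finset.ne_of_mem_erase hj
  simp [Function.update_of_ne this]

/-- Sum over the cube in terms of pairs of a point and its flip, coordinate `i`. -/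
lemma sum_cube_update (i : ι) (H : (ι → Bool) → ℝ) :
    2 * ∑ x, H x = ∑ x, (H (Function.update x i true) + H (Function.update x i false)) := by
  have hflip : ∑ x, H x = ∑ x, H (flip i x) :=
    (Equiv.sum_comp (flipEquiv i) H).symm
  have : ∀ x, H (Function.update x i true) + H (Function.update x i false)
      = H x + H (flip i x) := by
    intro x
    cases hx : x i with
    | true =>
      have h1 : Function.update x i true = x := by
        rw [← hx]; exact Function.update_eq_self i x
      simp [flip, hx, h1]
    | false =>
      have h1 : Function.update x i false = x := by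
        rw [← hx]; exact Function.update_eq_self i x
      simp [flip, hx, h1, add_comm]
  simp_rw [this]
  rw [Finset.sum_add_distrib, ← hflip]
  ring

/-- `ex` in terms of `rest`: integrate out coordinate `i`. -/
lemma ex_eq_sum_rest (p : ℝ) (i : ι) (g : (ι → Bool) → ℝ) :
    2 * ex p g = ∑ x, rest p i x *
      (p * g (Function.update x i true) + (1 - p) * g (Function.update x i false)) := by
  unfold ex
  rw [sum_cube_update i]
  refine Finset.sum_congr rfl (fun x _ => ?_)
  have h1 := weight_split p i (Function.update x i true)
  have h2 := weight_split p i (Function.update x i false)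
  simp only [Function.update_self] at h1 h2
  have h1' : bernoulliWeight p (Function.update x i true) = p * rest p i x := by
    rw [h1]; simp only [if_true]; rw [← rest_update p i x true]; rfl
  have h2' : bernoulliWeight p (Function.update x i false) = (1 - p) * rest p i x := by
    rw [h2]; simp only [Bool.false_eq_true, if_false]; rw [← rest_update p i x false]; rfl
  rw [h1', h2']; ring

/-- Integrating out a coordinate. -/
lemma ex_update (p : ℝ) (i : ι) (g : (ι → Bool) → ℝ) :
    ex p g = ex p (fun x => p * g (Function.update x i true)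
      + (1 - p) * g (Function.update x i false)) := by
  have h1 := ex_eq_sum_rest p i g
  have h2 := ex_eq_sum_rest p i (fun x => p * g (Function.update x i true)
      + (1 - p) * g (Function.update x i false))
  simp only [Function.update_idem, Function.update_self] at h2
  have h3 : ∀ x : ι → Bool, rest p i x * (p * (p * g (Function.update x i true)
        + (1 - p) * g (Function.update x i false))
      + (1 - p) * (p * g (Function.update x i true)
        + (1 - p) * g (Function.update x i false)))
      = rest p i x * (p * g (Function.update x i true)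
        + (1 - p) * g (Function.update x i false)) := by
    intro x; ring
  simp_rw [h3] at h2
  linarith

/-- Expectation with a function of one coordinate and a function independent of it. -/
lemma ex_mul_indep (p : ℝ) (i : ι) (ψ : Bool → ℝ) (G : (ι → Bool) → ℝ)
    (hG : ∀ x b, G (Function.update x i b) = G x) :
    ex p (fun x => ψ (x i) * G x) = (p * ψ true + (1 - p) * ψ false) * ex p G := by
  rw [ex_update p i, ← ex_const_mul]
  refine ex_congr p (fun x => ?_)
  simp only [Function.update_self, hG]
  ring

end Crest.Agent.SharpSym
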