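import Crest.Agent.Lib.SharpSym.Hyper

/-!
# Sets of slots with all degrees large are large
-/

set_option autoImplicit false

namespace Crest.Agent.SharpSym

open Finset Crest.CombinatoricsR.HypergraphCube

variable {n r : ℕ}

/-- The exponent `r / (r - 1)`. -/
noncomputable def gam (r : ℕ) : ℝ := (r : ℝ) / ((r : ℝ) - 1)

lemma gam_le_two {r : ℕ} (hr : 2 ≤ r) : gam r ≤ 2 := by
  have h : (2 : ℝ) ≤ r := by exact_mod_cast hr
  unfold gam
  rw [div_le_iff₀ (by linarith)]
  linarith

lemma one_le_gam {r : ℕ} (hr : 2 ≤ r) : 1 ≤ gam r := by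
  have h : (2 : ℝ) ≤ r := by exact_mod_cast hr
  unfold gam
  rw [le_div_iff₀ (by linarith)]
  linarith

lemma card_vs_le (S : Finset (HyperedgeSlot n r)) : (vs S).card ≤ S.card * r := by
  unfold vs
  refine Finset.card_biUnion_le.trans ?_
  have : ∀ e ∈ S, (e : Finset (Fin n)).card = r := fun e _ => e.2
  rw [Finset.sum_congr rfl this]
  simp

lemma sum_card_lk (S : Finset (HyperedgeSlot n r)) :
    ∑ x ∈ vs S, (lk x S).card = S.card * r := by
  classical
  unfold lk
  simp_rw [Finset.card_filter]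
  rw [Finset.sum_comm]
  have : ∀ e ∈ S, ∑ x ∈ vs S, (if x ∈ (e : Finset (Fin n)) then 1 else 0) = r := by
    intro e he
    rw [← Finset.card_filter]
    have h1 : (vs S).filter (fun x => x ∈ (e : Finset (Fin n))) = e.1 := by
      ext v
      simp only [Finset.mem_filter, and_iff_right_iff_imp]
      intro hv
      exact Finset.mem_biUnion.mpr ⟨e, he, hv⟩
    rw [h1]; exact e.2
  rw [Finset.sum_congr rfl this]
  simp

lemma card_lk_le (hr : 1 ≤ r) (S : Finset (HyperedgeSlot n r)) {x : Fin n} :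
    (lk x S).card ≤ (vs S).card ^ (r - 1) := by
  classical
  have h1 : (lk x S).card ≤ (Finset.powersetCard (r - 1) (vs S)).card := by
    refine Finset.card_le_card_of_injOn (fun e => e.1.erase x) ?_ ?_
    · intro e he
      obtain ⟨he1, he2⟩ := Finset.mem_filter.mp (Finset.mem_coe.mp he)
      refine Finset.mem_coe.mpr (Finset.mem_powersetCard.mpr ⟨?_, ?_⟩)
      · intro v hv
        exact Finset.mem_biUnion.mpr ⟨e, he1, Finset.mem_of_mem_erase hv⟩
      · rw [Finset.card_erase_of_mem he2, e.2]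
    · intro e he e' he' h
      obtain ⟨he1, he2⟩ := Finset.mem_filter.mp (Finset.mem_coe.mp he)
      obtain ⟨he1', he2'⟩ := Finset.mem_filter.mp (Finset.mem_coe.mp he')
      apply Subtype.ext
      have := congrArg (fun U => insert x U) h
      simpa [Finset.insert_erase he2, Finset.insert_erase he2'] using this
  rw [Finset.card_powersetCard] at h1
  exact h1.trans (Nat.choose_le_pow _ _)

/-- The structural lemma on low-order sets of slots. -/
lemma low_deg (hr : 2 ≤ r) {d : ℕ} (hd : 1 ≤ d) (S : Finset (HyperedgeSlot n r)) (hS : S ≠ ∅)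
    (hcard : (S.card : ℝ) < (d : ℝ) ^ gam r / r) :
    (vs S).card ≤ d ^ 2 ∧ ∃ x ∈ vs S, (lk x S).card ≤ d := by
  classical
  have hr0 : (0 : ℝ) < r := by
    have : 0 < r := by omega
    exact_mod_cast this
  have hd1 : (1 : ℝ) ≤ d := by exact_mod_cast hd
  have hd0 : (0 : ℝ) < d := by linarith
  have hcard' : (S.card : ℝ) * r < (d : ℝ) ^ gam r := by
    rwa [lt_div_iff₀ hr0] at hcard
  refine ⟨?_, ?_⟩
  · have h1 : ((vs S).card : ℝ) ≤ (S.card : ℝ) * r := by exact_mod_cast card_vs_le S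
    have h2 : (d : ℝ) ^ gam r ≤ (d : ℝ) ^ (2 : ℝ) :=
      Real.rpow_le_rpow_of_exponent_le hd1 (gam_le_two hr)
    have h3 : ((vs S).card : ℝ) ≤ (d : ℝ) ^ 2 := by
      have h4 : (d : ℝ) ^ (2 : ℝ) = (d : ℝ) ^ (2 : ℕ) := by
        rw [← Real.rpow_natCast]; norm_num
      calc ((vs S).card : ℝ) ≤ (S.card : ℝ) * r := h1
        _ ≤ (d : ℝ) ^ gam r := hcard'.le
        _ ≤ (d : ℝ) ^ (2 : ℝ) := h2
        _ = _ := h4
    exact_mod_cast h3
  · by_contra hcon
    push Not at hcon
    obtain ⟨e, he⟩ := Finset.nonempty_iff_ne_empty.mpr hS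
    have hene : (e.1).Nonempty := by
      rw [← Finset.card_pos, e.2]; omega
    obtain ⟨x₀, hx₀⟩ := hene
    have hx₀v : x₀ ∈ vs S := Finset.mem_biUnion.mpr ⟨e, he, hx₀⟩
    set N := (vs S).card with hN
    have hN1 : 1 ≤ N := Finset.card_pos.mpr ⟨x₀, hx₀v⟩
    have h1 : d < N ^ (r - 1) :=
      (hcon x₀ hx₀v).trans_le (card_lk_le (by omega) S)
    have h2 : N * d ≤ S.card * r := by
      rw [← sum_card_lk S]
      calc N * d = ∑ _x ∈ vs S, d := by simp [hN]
        _ ≤ _ := Finset.sum_le_sum (fun x hx => (hcon x hx).le)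
    -- real arithmetic
    set a : ℝ := (d : ℝ) ^ (1 / ((r : ℝ) - 1)) with ha
    have hrr : (0 : ℝ) < (r : ℝ) - 1 := by
      have : (2 : ℝ) ≤ r := by exact_mod_cast hr
      linarith
    have ha0 : 0 ≤ a := by positivity
    have hapow : a ^ (r - 1) = d := by
      rw [ha, ← Real.rpow_natCast, ← Real.rpow_mul hd0.le]
      have : ((r - 1 : ℕ) : ℝ) = (r : ℝ) - 1 := by
        rw [Nat.cast_sub (by omega)]; simp
      rw [this, one_div, inv_mul_cancel₀ hrr.ne', Real.rpow_one]
    have haN : a ≤ N := by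
      have h3 : a ^ (r - 1) ≤ (N : ℝ) ^ (r - 1) := by
        rw [hapow]
        exact_mod_cast h1.le
      exact le_of_pow_le_pow_left₀ (by omega) (by positivity) h3
    have hgam : (d : ℝ) ^ gam r = d * a := by
      have : gam r = 1 + 1 / ((r : ℝ) - 1) := by
        unfold gam
        field_simp
        ring
      rw [this, Real.rpow_add hd0, Real.rpow_one]
    have h4 : (d : ℝ) * a ≤ (N : ℝ) * d := by nlinarith
    have h5 : (N : ℝ) * d ≤ (S.card : ℝ) * r := by exact_mod_cast h2
    rw [hgam] at hcard'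
    linarith

end Crest.Agent.SharpSym
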