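import Crest.Agent.Lib.SharpSym.Cube

/-!
# Fourier expansion on the p-biased cube
-/

set_option autoImplicit false

namespace Crest.Agent.SharpSym

open Finset Crest.FinProb

variable {ι : Type*} [Fintype ι] [DecidableEq ι]

/-- The standard deviation of a single coin. -/
noncomputable def sg (p : ℝ) : ℝ := Real.sqrt (p * (1 - p))

lemma sg_pos {p : ℝ} (hp0 : 0 < p) (hp1 : p < 1) : 0 < sg p :=
  Real.sqrt_pos.mpr (mul_pos hp0 (by linarith))

lemma sg_sq {p : ℝ} (hp0 : 0 < p) (hp1 : p < 1) : sg p ^ 2 = p * (1 - p) :=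
  Real.sq_sqrt (mul_nonneg hp0.le (by linarith))

lemma sg_sq_le {p : ℝ} (hp0 : 0 < p) (hp1 : p < 1) : sg p ^ 2 ≤ 1 / 4 := by
  rw [sg_sq hp0 hp1]; nlinarith [sq_nonneg (p - 1 / 2)]

/-- The normalised coin. -/
noncomputable def phi (p : ℝ) (b : Bool) : ℝ := (if b then 1 - p else -p) / sg p

lemma p_phi_true {p : ℝ} (hp0 : 0 < p) (hp1 : p < 1) : p * phi p true = sg p := by
  have h := sg_pos hp0 hp1
  have h2 := sg_sq hp0 hp1
  unfold phi
  simp only [if_true]
  field_simp
  nlinarith

lemma q_phi_false {p : ℝ} (hp0 : 0 < p) (hp1 : p < 1) : (1 - p) * phi p false = - sg p := by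
  have h := sg_pos hp0 hp1
  have h2 := sg_sq hp0 hp1
  unfold phi
  simp only [Bool.false_eq_true, if_false]
  field_simp
  nlinarith

lemma phi_mean {p : ℝ} (hp0 : 0 < p) (hp1 : p < 1) :
    p * phi p true + (1 - p) * phi p false = 0 := by
  rw [p_phi_true hp0 hp1, q_phi_false hp0 hp1]; ring

lemma phi_true_sub_false {p : ℝ} (hp0 : 0 < p) (hp1 : p < 1) :
    phi p true - phi p false = 1 / sg p := by
  have h := sg_pos hp0 hp1
  unfold phi
  simp only [if_true, Bool.false_eq_true, if_false]
  field_simp
  ring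

lemma phi_true_sq {p : ℝ} (hp0 : 0 < p) (hp1 : p < 1) : phi p true ^ 2 = (1 - p) / p := by
  have h := sg_pos hp0 hp1
  have h2 := sg_sq hp0 hp1
  unfold phi
  simp only [if_true]
  rw [div_pow, h2]
  have : 1 - p ≠ 0 := by linarith
  field_simp

lemma phi_false_sq {p : ℝ} (hp0 : 0 < p) (hp1 : p < 1) : phi p false ^ 2 = p / (1 - p) := by
  have h := sg_pos hp0 hp1
  have h2 := sg_sq hp0 hp1
  unfold phi
  simp only [Bool.false_eq_true, if_false]
  rw [div_pow, h2]
  have : 1 - p ≠ 0 := by linarith
  field_simp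

lemma phi_true_mul_false {p : ℝ} (hp0 : 0 < p) (hp1 : p < 1) :
    phi p true * phi p false = -1 := by
  have h := sg_pos hp0 hp1
  have h2 := sg_sq hp0 hp1
  unfold phi
  simp only [if_true, Bool.false_eq_true, if_false]
  rw [div_mul_div_comm, ← sq, h2]
  have : 1 - p ≠ 0 := by linarith
  field_simp

lemma phi_sq_mean {p : ℝ} (hp0 : 0 < p) (hp1 : p < 1) :
    p * phi p true ^ 2 + (1 - p) * phi p false ^ 2 = 1 := by
  rw [phi_true_sq hp0 hp1, phi_false_sq hp0 hp1]
  have : 1 - p ≠ 0 := by linarith
  field_simp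
  ring

/-- The Fourier character of the set `S`. -/
noncomputable def chi (p : ℝ) (S : Finset ι) (x : ι → Bool) : ℝ := ∏ i ∈ S, phi p (x i)

@[simp] lemma chi_empty (p : ℝ) (x : ι → Bool) : chi p ∅ x = 1 := by simp [chi]

lemma chi_insert (p : ℝ) {e : ι} {S : Finset ι} (he : e ∉ S) (x : ι → Bool) :
    chi p (insert e S) x = phi p (x e) * chi p S x := by
  unfold chi; rw [Finset.prod_insert he]

lemma chi_update (p : ℝ) {e : ι} {S : Finset ι} (he : e ∉ S) (x : ι → Bool) (b : Bool) :
    chi p S (Function.update x e b) = chi p S x := by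
  unfold chi
  refine Finset.prod_congr rfl (fun i hi => ?_)
  have : i ≠ e := fun h => he (h ▸ hi)
  simp [Function.update_of_ne this]

lemma chi_eq_prod (p : ℝ) (S : Finset ι) (x : ι → Bool) :
    chi p S x = ∏ i, (if i ∈ S then phi p (x i) else 1) := by
  unfold chi
  rw [Fintype.prod_ite_mem]

/-- Orthonormality of the characters. -/
lemma ex_chi_mul_chi {p : ℝ} (hp0 : 0 < p) (hp1 : p < 1) (S T : Finset ι) :
    ex p (fun x => chi p S x * chi p T x) = if S = T then 1 else 0 := by
  have h1 : ∀ x : ι → Bool, chi p S x * chi p T x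
      = ∏ i, ((if i ∈ S then phi p (x i) else 1) * (if i ∈ T then phi p (x i) else 1)) := by
    intro x
    rw [chi_eq_prod, chi_eq_prod, Finset.prod_mul_distrib]
  rw [ex_congr p h1]
  rw [ex_prod p (fun i b => (if i ∈ S then phi p b else 1) * (if i ∈ T then phi p b else 1))]
  by_cases hST : S = T
  · subst hST
    rw [if_pos rfl]
    refine Finset.prod_eq_one (fun i _ => ?_)
    by_cases hi : i ∈ S
    · simp only [hi, if_true]
      have := phi_sq_mean hp0 hp1
      nlinarith
    · simp only [hi, if_false]; ring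
  · rw [if_neg hST]
    have : ∃ i, (i ∈ S ∧ i ∉ T) ∨ (i ∉ S ∧ i ∈ T) := by
      by_contra hcon
      push Not at hcon
      apply hST
      ext i
      have := hcon i
      tauto
    obtain ⟨i, hi⟩ := this
    refine Finset.prod_eq_zero (Finset.mem_univ i) ?_
    have := phi_mean hp0 hp1
    rcases hi with ⟨h1, h2⟩ | ⟨h1, h2⟩
    · simp only [h1, h2, if_true, if_false]; linarith
    · simp only [h1, h2, if_true, if_false]; linarith

/-- The one-coordinate reproducing kernel. -/
lemma one_add_phi_mul {p : ℝ} (hp0 : 0 < p) (hp1 : p < 1) (a b : Bool) :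
    1 + phi p a * phi p b = if a = b then (if a then p else 1 - p)⁻¹ else 0 := by
  have hq : 1 - p ≠ 0 := by linarith
  have hp : p ≠ 0 := by linarith
  cases a <;> cases b
  · simp only [if_true, Bool.false_eq_true, if_false]
    have := phi_false_sq hp0 hp1
    rw [← sq, this]; field_simp; ring
  · simp only [Bool.false_eq_true, if_false, Bool.false_eq_true, if_true]
    have := phi_true_mul_false hp0 hp1
    rw [mul_comm, this]; simp
  · simp only [Bool.true_eq_false, if_false]
    have := phi_true_mul_false hp0 hp1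
    rw [this]; simp
  · simp only [if_true]
    have := phi_true_sq hp0 hp1
    rw [← sq, this]; field_simp; ring

/-- The reproducing kernel of the characters. -/
lemma sum_chi_mul_chi {p : ℝ} (hp0 : 0 < p) (hp1 : p < 1) (x y : ι → Bool) :
    ∑ S : Finset ι, chi p S x * chi p S y = if x = y then (bernoulliWeight p x)⁻¹ else 0 := by
  have h1 : ∑ S : Finset ι, chi p S x * chi p S y = ∏ i, (1 + phi p (x i) * phi p (y i)) := by
    rw [Finset.prod_one_add, Finset.powerset_univ]
    refine Finset.sum_congr rfl (fun S _ => ?_)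
    unfold chi
    rw [Finset.prod_mul_distrib]
  rw [h1]
  simp_rw [one_add_phi_mul hp0 hp1]
  by_cases hxy : x = y
  · subst hxy
    simp only [if_true, bernoulliWeight, Finset.prod_inv_distrib]
  · rw [if_neg hxy]
    have : ∃ i, x i ≠ y i := by
      by_contra hcon
      push Not at hcon
      exact hxy (funext hcon)
    obtain ⟨i, hi⟩ := this
    refine Finset.prod_eq_zero (Finset.mem_univ i) ?_
    rw [if_neg hi]

/-- The Fourier coefficient. -/
noncomputable def coef (p : ℝ) (g : (ι → Bool) → ℝ) (S : Finset ι) : ℝ :=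
  ex p (fun x => g x * chi p S x)

/-- Completeness of the Fourier expansion. -/
lemma expansion {p : ℝ} (hp0 : 0 < p) (hp1 : p < 1) (g : (ι → Bool) → ℝ) (x : ι → Bool) :
    g x = ∑ S : Finset ι, coef p g S * chi p S x := by
  unfold coef ex
  have h1 : ∑ S : Finset ι, (∑ y, bernoulliWeight p y * (g y * chi p S y)) * chi p S x
      = ∑ y, bernoulliWeight p y * g y * ∑ S : Finset ι, chi p S y * chi p S x := by
    simp_rw [Finset.sum_mul, Finset.mul_sum]
    rw [Finset.sum_comm]
    refine Finset.sum_congr rfl (fun y _ => Finset.sum_congr rfl (fun S _ => ?_))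
    ring
  rw [h1]
  simp_rw [sum_chi_mul_chi hp0 hp1]
  simp only [mul_ite, mul_zero, Finset.sum_ite_eq', Finset.mem_univ, if_true]
  have := (weight_pos hp0 hp1 x).ne'
  field_simp

/-- Parseval's identity (polarised). -/
lemma parseval {p : ℝ} (hp0 : 0 < p) (hp1 : p < 1) (g h : (ι → Bool) → ℝ) :
    ex p (fun x => g x * h x) = ∑ S : Finset ι, coef p g S * coef p h S := by
  have h1 : ∀ x, g x * h x = ∑ S : Finset ι, coef p g S * (h x * chi p S x) := by
    intro x
    conv_lhs => rw [expansion hp0 hp1 g x]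
    rw [Finset.sum_mul]
    refine Finset.sum_congr rfl (fun S _ => ?_)
    ring
  rw [ex_congr p h1, ex_sum]
  refine Finset.sum_congr rfl (fun S _ => ?_)
  rw [ex_const_mul]
  rfl

lemma parseval_sq {p : ℝ} (hp0 : 0 < p) (hp1 : p < 1) (g : (ι → Bool) → ℝ) :
    ex p (fun x => g x ^ 2) = ∑ S : Finset ι, coef p g S ^ 2 := by
  have := parseval hp0 hp1 g g
  simp_rw [sq]
  exact this

/-- Bessel's inequality for a subfamily of characters. -/
lemma bessel {p : ℝ} (hp0 : 0 < p) (hp1 : p < 1) (g : (ι → Bool) → ℝ) (A : Finset (Finset ι)) :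
    ∑ S ∈ A, coef p g S ^ 2 ≤ ex p (fun x => g x ^ 2) := by
  rw [parseval_sq hp0 hp1]
  exact Finset.sum_le_sum_of_subset_of_nonneg (Finset.subset_univ A) (fun _ _ _ => sq_nonneg _)

lemma coef_empty (p : ℝ) (g : (ι → Bool) → ℝ) : coef p g ∅ = ex p g := by
  unfold coef
  exact ex_congr p (fun x => by simp)

/-- The variance is the sum of the squared nontrivial Fourier coefficients. -/
lemma variance_eq {p : ℝ} (hp0 : 0 < p) (hp1 : p < 1) (g : (ι → Bool) → ℝ) :
    ex p (fun x => g x ^ 2) - ex p g ^ 2 = ∑ S ∈ Finset.univ.erase (∅ : Finset ι), coef p g S ^ 2 := by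
  rw [parseval_sq hp0 hp1]
  rw [← Finset.add_sum_erase Finset.univ _ (Finset.mem_univ (∅ : Finset ι)), coef_empty]
  ring

/-- The discrete derivative. -/
def dd (e : ι) (g : (ι → Bool) → ℝ) (x : ι → Bool) : ℝ :=
  g (Function.update x e true) - g (Function.update x e false)

/-- The Fourier coefficients of the derivative. -/
lemma coef_dd {p : ℝ} (hp0 : 0 < p) (hp1 : p < 1) (g : (ι → Bool) → ℝ) {e : ι} {S : Finset ι}
    (he : e ∉ S) : sg p * coef p (dd e g) S = coef p g (insert e S) := by
  unfold coef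
  rw [← ex_const_mul, ex_update p e (fun x => g x * chi p (insert e S) x)]
  refine ex_congr p (fun x => ?_)
  simp only [chi_insert p he, chi_update p he, Function.update_self, dd]
  have h1 := p_phi_true hp0 hp1
  have h2 := q_phi_false hp0 hp1
  have : p * (g (Function.update x e true) * (phi p true * chi p S x))
      + (1 - p) * (g (Function.update x e false) * (phi p false * chi p S x))
      = (p * phi p true) * (g (Function.update x e true) * chi p S x)
        + ((1 - p) * phi p false) * (g (Function.update x e false) * chi p S x) := by ring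
  rw [this, h1, h2]; ring

/-- A polynomial given by its coefficients. -/
noncomputable def poly (p : ℝ) (c : Finset ι → ℝ) (x : ι → Bool) : ℝ :=
  ∑ S : Finset ι, c S * chi p S x

lemma ex_poly_mul (p : ℝ) (c : Finset ι → ℝ) (v : (ι → Bool) → ℝ) :
    ex p (fun x => poly p c x * v x) = ∑ S : Finset ι, c S * coef p v S := by
  unfold poly
  simp_rw [Finset.sum_mul]
  rw [ex_sum]
  refine Finset.sum_congr rfl (fun S _ => ?_)
  unfold coef
  rw [← ex_const_mul]
  exact ex_congr p (fun x => by ring)

lemma coef_poly {p : ℝ} (hp0 : 0 < p) (hp1 : p < 1) (c : Finset ι → ℝ) (R : Finset ι) :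
    coef p (poly p c) R = c R := by
  unfold coef poly
  simp_rw [Finset.sum_mul]
  rw [ex_sum]
  have : ∀ S : Finset ι, ex p (fun x => c S * chi p S x * chi p R x)
      = c S * (if S = R then 1 else 0) := by
    intro S
    rw [← ex_chi_mul_chi hp0 hp1, ← ex_const_mul]
    exact ex_congr p (fun x => by ring)
  simp_rw [this]
  simp

lemma ex_poly_sq {p : ℝ} (hp0 : 0 < p) (hp1 : p < 1) (c : Finset ι → ℝ) :
    ex p (fun x => poly p c x ^ 2) = ∑ S : Finset ι, c S ^ 2 := by
  rw [parseval_sq hp0 hp1]
  simp_rw [coef_poly hp0 hp1]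

/-- Splitting a sum over all finite sets according to whether they contain `i`. -/
lemma sum_finset_split (i : ι) {M : Type*} [AddCommMonoid M] (G : Finset ι → M) :
    ∑ S : Finset ι, G S = ∑ S : Finset ι, (if i ∈ S then 0 else G S + G (insert i S)) := by
  have h1 : ∑ S : Finset ι, G S = ∑ S ∈ Finset.univ.filter (fun S : Finset ι => i ∉ S), G S
      + ∑ S ∈ Finset.univ.filter (fun S : Finset ι => i ∈ S), G S := by
    rw [add_comm, Finset.sum_filter_add_sum_filter_not]
  have h2 : ∑ S ∈ Finset.univ.filter (fun S : Finset ι => i ∈ S), G S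
      = ∑ S ∈ Finset.univ.filter (fun S : Finset ι => i ∉ S), G (insert i S) := by
    symm
    refine Finset.sum_bij (fun S _ => insert i S) ?_ ?_ ?_ ?_
    · intro S _; simp
    · intro S hS T hT hST
      simp only [Finset.mem_filter, Finset.mem_univ, true_and] at hS hT
      have := congrArg (fun U => Finset.erase U i) hST
      simpa [Finset.erase_insert hS, Finset.erase_insert hT] using this
    · intro T hT
      simp only [Finset.mem_filter, Finset.mem_univ, true_and] at hT
      exact ⟨T.erase i, by simp, Finset.insert_erase hT⟩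
    · intro S _; rfl
  rw [h1, h2, ← Finset.sum_add_distrib]
  have : ∀ S : Finset ι, (if i ∈ S then (0 : M) else G S + G (insert i S))
      = if i ∉ S then G S + G (insert i S) else 0 := by
    intro S; by_cases h : i ∈ S <;> simp [h]
  simp_rw [this]
  rw [Finset.sum_ite]
  simp

end Crest.Agent.SharpSym
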