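import Crest.Agent.Lib.SharpSym.Russo
import Crest.Prelude.Def_RandomGraph

/-!
# Graphs as `2`-uniform hypergraphs
-/

set_option autoImplicit false

namespace Crest.Agent.SharpSym

open Finset Crest.FinProb Crest.CombinatoricsR.HypergraphCube Crest.CombinatoricsR.RandomGraph

variable {n : ℕ}

/-- The slot of a pair of distinct vertices. -/
def pairSlot (i j : Fin n) (h : i ≠ j) : HyperedgeSlot n 2 := ⟨{i, j}, Finset.card_pair h⟩

/-- Edge slots are `2`-uniform hyperedge slots. -/
noncomputable def slotEquiv (n : ℕ) : EdgeSlot n ≃ HyperedgeSlot n 2 :=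
  Equiv.ofBijective (fun z => ⟨z.1.toFinset, Sym2.card_toFinset_of_not_isDiag z.1 z.2⟩) (by
    constructor
    · intro z z' h
      apply Subtype.ext
      have h1 : z.1.toFinset = z'.1.toFinset := congrArg Subtype.val h
      ext a
      rw [← Sym2.mem_toFinset, ← Sym2.mem_toFinset, h1]
    · intro e
      obtain ⟨a, b, hab, hs⟩ := Finset.card_eq_two.mp e.2
      refine ⟨⟨s(a, b), by simpa using hab⟩, ?_⟩
      apply Subtype.ext
      simp only [Sym2.toFinset_mk_eq]
      exact hs.symm)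

lemma slotEquiv_mk (i j : Fin n) (h : ¬ (s(i, j)).IsDiag) (hij : i ≠ j) :
    slotEquiv n ⟨s(i, j), h⟩ = pairSlot i j hij := by
  apply Subtype.ext
  show (s(i, j)).toFinset = {i, j}
  exact Sym2.toFinset_mk_eq

/-- The graph of a hypergraph outcome. -/
noncomputable def gr (x : HyperedgeSlot n 2 → Bool) : SimpleGraph (Fin n) :=
  graphOf (fun z => x (slotEquiv n z))

lemma gr_adj (x : HyperedgeSlot n 2 → Bool) (i j : Fin n) :
    (gr x).Adj i j ↔ ∃ h : i ≠ j, x (pairSlot i j h) = true := by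
  unfold gr graphOf
  rw [SimpleGraph.fromEdgeSet_adj]
  constructor
  · rintro ⟨⟨h1, h2⟩, h3⟩
    refine ⟨h3, ?_⟩
    rw [← slotEquiv_mk i j h1 h3]
    exact h2
  · rintro ⟨h1, h2⟩
    have h3 : ¬ (s(i, j)).IsDiag := by simpa using h1
    refine ⟨⟨h3, ?_⟩, h1⟩
    show x (slotEquiv n ⟨s(i, j), h3⟩) = true
    rw [slotEquiv_mk i j h3 h1]
    exact h2

lemma relabel_pair (σ : Equiv.Perm (Fin n)) (x : HyperedgeSlot n 2 → Bool) (i j : Fin n)
    (h : i ≠ j) (h' : σ i ≠ σ j) :
    relabel σ x (pairSlot i j h) = x (pairSlot (σ i) (σ j) h') := by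
  unfold relabel
  congr 1
  apply Subtype.ext
  show ({i, j} : Finset (Fin n)).map σ.toEmbedding = {σ i, σ j}
  simp [Finset.map_insert]

lemma gr_relabel_adj (σ : Equiv.Perm (Fin n)) (x : HyperedgeSlot n 2 → Bool) (i j : Fin n) :
    (gr (relabel σ x)).Adj i j ↔ (gr x).Adj (σ i) (σ j) := by
  rw [gr_adj, gr_adj]
  constructor
  · rintro ⟨h, h2⟩
    have h' : σ i ≠ σ j := fun e => h (σ.injective e)
    exact ⟨h', by rw [← relabel_pair σ x i j h h']; exact h2⟩
  · rintro ⟨h', h2⟩
    have h : i ≠ j := fun e => h' (congrArg σ e)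
    exact ⟨h, by rw [relabel_pair σ x i j h h']; exact h2⟩

lemma map_of_adj_iff (σ : Equiv.Perm (Fin n)) (G G' : SimpleGraph (Fin n))
    (H : ∀ i j, G'.Adj (σ i) (σ j) ↔ G.Adj i j) : G.map σ.toEmbedding = G' := by
  ext a b
  rw [SimpleGraph.map_adj]
  constructor
  · rintro ⟨u, v, h, rfl, rfl⟩
    exact (H u v).mpr h
  · intro h
    refine ⟨σ.symm a, σ.symm b, ?_, by simp, by simp⟩
    rw [← H]
    simpa using h

section
variable (P : Set (SimpleGraph (Fin n)))

open Classical in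
/-- The Boolean function of the property `P`. -/
noncomputable def bf (x : HyperedgeSlot n 2 → Bool) : Bool := decide (gr x ∈ P)

lemma bf_eq_true (x : HyperedgeSlot n 2 → Bool) : bf P x = true ↔ gr x ∈ P := by
  unfold bf; simp

lemma ind_bf (x : HyperedgeSlot n 2 → Bool) :
    ind (bf P) x = @ite ℝ (gr x ∈ P) (Classical.propDecidable _) 1 0 := by
  unfold ind
  by_cases h : gr x ∈ P
  · simp [h, (bf_eq_true P x).mpr h]
  · have : ¬ bf P x = true := fun e => h ((bf_eq_true P x).mp e)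
    simp [h, this]

/-- The probability of a graph property in terms of hypergraph outcomes. -/
lemma gnpProb_eq (p : ℝ) : gnpProb n p P = ex p (ind (bf P)) := by
  unfold gnpProb
  rw [bernoulliProb_eq_ex]
  unfold ex
  have hw : ∀ x : HyperedgeSlot n 2 → Bool,
      bernoulliWeight p (fun z => x (slotEquiv n z)) = bernoulliWeight p x := by
    intro x
    unfold bernoulliWeight
    exact Equiv.prod_comp (slotEquiv n) (fun i => if x i then p else 1 - p)
  let Φ : (HyperedgeSlot n 2 → Bool) ≃ (EdgeSlot n → Bool) :=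
    (slotEquiv n).symm.arrowCongr (Equiv.refl Bool)
  have hΦ : ∀ x, Φ x = fun z => x (slotEquiv n z) := by
    intro x; funext z; simp [Φ, Equiv.arrowCongr]
  rw [← Equiv.sum_comp Φ]
  refine Finset.sum_congr rfl (fun x _ => ?_)
  rw [hΦ, hw, ind_bf]
  rfl

lemma bf_symm (hsymm : ∀ σ : Equiv.Perm (Fin n), ∀ G : SimpleGraph (Fin n), G ∈ P →
      G.map σ.toEmbedding ∈ P) : IsSymmetric (bf P) := by
  intro σ x
  have h1 : (gr (relabel σ x)).map σ.toEmbedding = gr x :=
    map_of_adj_iff σ _ _ (fun i j => (gr_relabel_adj σ x i j).symm)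
  have h2 : (gr x).map (σ⁻¹).toEmbedding = gr (relabel σ x) := by
    apply map_of_adj_iff
    intro i j
    rw [gr_relabel_adj]
    simp
  have h3 : gr (relabel σ x) ∈ P ↔ gr x ∈ P := by
    constructor
    · intro h
      rw [← h1]
      exact hsymm σ _ h
    · intro h
      rw [← h2]
      exact hsymm σ⁻¹ _ h
  show bf P (relabel σ x) = bf P x
  unfold bf
  exact decide_eq_decide.mpr h3

lemma gr_update_le (x : HyperedgeSlot n 2 → Bool) (e : HyperedgeSlot n 2) :
    gr (Function.update x e false) ≤ gr (Function.update x e true) := by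
  intro i j h
  rw [gr_adj] at h ⊢
  obtain ⟨h1, h2⟩ := h
  refine ⟨h1, ?_⟩
  by_cases he : pairSlot i j h1 = e
  · rw [he] at h2
    simp at h2
  · rw [Function.update_of_ne he] at h2 ⊢
    exact h2

lemma dd_nonneg (hmono : ∀ G G' : SimpleGraph (Fin n), G ≤ G' → G ∈ P → G' ∈ P)
    (e : HyperedgeSlot n 2) (x : HyperedgeSlot n 2 → Bool) :
    0 ≤ dd e (ind (bf P)) x := by
  unfold dd
  rw [ind_bf, ind_bf]
  by_cases h : gr (Function.update x e false) ∈ P
  · have h2 := hmono _ _ (gr_update_le x e) h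
    simp [h, h2]
  · by_cases h2 : gr (Function.update x e true) ∈ P <;> simp [h, h2]

lemma piv_eq_ex_dd (hmono : ∀ G G' : SimpleGraph (Fin n), G ≤ G' → G ∈ P → G' ∈ P)
    (t : ℝ) (e : HyperedgeSlot n 2) :
    piv t e (ind (bf P)) = ex t (dd e (ind (bf P))) := by
  unfold piv
  exact ex_congr t (fun x => abs_of_nonneg (dd_nonneg P hmono e x))

/-- The everywhere-false outcome is not in a proper monotone family. -/
lemma gr_false_not_mem (hmono : ∀ G G' : SimpleGraph (Fin n), G ≤ G' → G ∈ P → G' ∈ P)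
    (hnu : P ≠ Set.univ) : gr (fun _ => false) ∉ P := by
  intro h
  apply hnu
  ext G
  simp only [Set.mem_univ, iff_true]
  refine hmono _ _ ?_ h
  intro i j hij
  rw [gr_adj] at hij
  obtain ⟨_, h2⟩ := hij
  simp at h2

/-- The everywhere-true outcome is in a nonempty monotone family. -/
lemma gr_true_mem (hmono : ∀ G G' : SimpleGraph (Fin n), G ≤ G' → G ∈ P → G' ∈ P)
    (hne : P.Nonempty) : gr (fun _ => true) ∈ P := by
  obtain ⟨G, hG⟩ := hne
  refine hmono _ _ ?_ hG
  intro i j hij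
  rw [gr_adj]
  exact ⟨hij.ne, rfl⟩

lemma ind_mono_false (hmono : ∀ G G' : SimpleGraph (Fin n), G ≤ G' → G ∈ P → G' ∈ P)
    (hnu : P ≠ Set.univ) : ind (bf P) (fun _ => false) = 0 := by
  rw [ind_bf]
  simp [gr_false_not_mem P hmono hnu]

lemma ind_mono_true (hmono : ∀ G G' : SimpleGraph (Fin n), G ≤ G' → G ∈ P → G' ∈ P)
    (hne : P.Nonempty) : ind (bf P) (fun _ => true) = 1 := by
  rw [ind_bf]
  simp [gr_true_mem P hmono hne]

lemma mu_pos (hmono : ∀ G G' : SimpleGraph (Fin n), G ≤ G' → G ∈ P → G' ∈ P)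
    (hne : P.Nonempty) {t : ℝ} (h0 : 0 < t) (h1 : t < 1) : 0 < ex t (ind (bf P)) := by
  have hnn : ∀ x, 0 ≤ bernoulliWeight t x * ind (bf P) x := fun x =>
    mul_nonneg (weight_nonneg h0.le h1.le x) (ind_bounds _ x).1
  have : bernoulliWeight t (fun _ => true) * ind (bf P) (fun _ => true) ≤ ex t (ind (bf P)) :=
    Finset.single_le_sum (f := fun x => bernoulliWeight t x * ind (bf P) x)
      (fun x _ => hnn x) (Finset.mem_univ _)
  rw [ind_mono_true P hmono hne, mul_one] at this
  linarith [weight_pos h0 h1 (fun _ : HyperedgeSlot n 2 => true)]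

lemma mu_lt_one (hmono : ∀ G G' : SimpleGraph (Fin n), G ≤ G' → G ∈ P → G' ∈ P)
    (hnu : P ≠ Set.univ) {t : ℝ} (h0 : 0 < t) (h1 : t < 1) : ex t (ind (bf P)) < 1 := by
  have hnn : ∀ x, 0 ≤ bernoulliWeight t x * (1 - ind (bf P) x) := fun x =>
    mul_nonneg (weight_nonneg h0.le h1.le x) (by linarith [(ind_bounds (bf P) x).2])
  have : bernoulliWeight t (fun _ => false) * (1 - ind (bf P) (fun _ => false))
      ≤ ex t (fun x => 1 - ind (bf P) x) :=
    Finset.single_le_sum (f := fun x => bernoulliWeight t x * (1 - ind (bf P) x))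
      (fun x _ => hnn x) (Finset.mem_univ _)
  rw [ind_mono_false P hmono hnu, sub_zero, mul_one, ex_sub, ex_one] at this
  linarith [weight_pos h0 h1 (fun _ : HyperedgeSlot n 2 => false)]

lemma mu_zero (hmono : ∀ G G' : SimpleGraph (Fin n), G ≤ G' → G ∈ P → G' ∈ P)
    (hnu : P ≠ Set.univ) : ex 0 (ind (bf P)) = 0 := by
  unfold ex
  refine Finset.sum_eq_zero (fun x _ => ?_)
  by_cases hx : x = fun _ => false
  · rw [hx, ind_mono_false P hmono hnu, mul_zero]
  · have : ∃ i, x i = true := by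
      by_contra hcon
      push Not at hcon
      exact hx (funext (fun i => by simpa using hcon i))
    obtain ⟨i, hi⟩ := this
    have : bernoulliWeight 0 x = 0 := by
      unfold bernoulliWeight
      exact Finset.prod_eq_zero (Finset.mem_univ i) (by simp [hi])
    rw [this, zero_mul]

lemma mu_one (hmono : ∀ G G' : SimpleGraph (Fin n), G ≤ G' → G ∈ P → G' ∈ P)
    (hne : P.Nonempty) : ex 1 (ind (bf P)) = 1 := by
  have h : ex 1 (fun x => 1 - ind (bf P) x) = 0 := by
    unfold ex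
    refine Finset.sum_eq_zero (fun x _ => ?_)
    by_cases hx : x = fun _ => true
    · subst hx
      show bernoulliWeight 1 _ * (1 - ind (bf P) (fun _ => true)) = 0
      rw [ind_mono_true P hmono hne]; ring
    · have : ∃ i, x i = false := by
        by_contra hcon
        push Not at hcon
        exact hx (funext (fun i => by simpa using hcon i))
      obtain ⟨i, hi⟩ := this
      have : bernoulliWeight 1 x = 0 := by
        unfold bernoulliWeight
        exact Finset.prod_eq_zero (Finset.mem_univ i) (by simp [hi])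
      rw [this, zero_mul]
  rw [ex_sub, ex_one] at h
  linarith

end

/-- The differential inequality for graphs. -/
theorem graph_ode (hn : 2 ≤ n) (f : (HyperedgeSlot n 2 → Bool) → Bool) (hf : IsSymmetric f)
    {t : ℝ} (h0 : 0 < t) (h1 : t < 1) :
    ex t (ind f) * (1 - ex t (ind f)) ≤ (2 ^ 17 / Real.log n ^ 2) * totI (ind f) t := by
  set ℓ := Real.log n with hℓ
  have hn2 : (2 : ℝ) ≤ n := by exact_mod_cast hn
  have hℓ0 : 0 < ℓ := Real.log_pos (by linarith)
  have hI0 : 0 ≤ totI (ind f) t := Finset.sum_nonneg (fun e _ => piv_nonneg h0 h1 e _)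
  rw [← var_ind]
  by_cases hsmall : ℓ ^ 2 ≤ 2 ^ 19
  · -- Poincaré
    have h2 := poincare h0 h1 (ind f) (ind_bounds f)
    have h3 := sg_sq_le h0 h1
    have h4 : (1 : ℝ) / 4 ≤ 2 ^ 17 / ℓ ^ 2 := by
      rw [div_le_div_iff₀ (by norm_num) (by positivity)]
      norm_num at hsmall ⊢
      linarith
    refine h2.trans ?_
    exact mul_le_mul_of_nonneg_right (h3.trans h4) hI0
  · push Not at hsmall
    have hn3 : 3 ≤ n := by
      by_contra hcon
      have h2 : n = 2 := by omega
      have h3 : ℓ ≤ 1 := by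
        rw [hℓ, h2]
        have := Real.log_two_lt_d9
        push_cast
        linarith
      have h4 : ℓ ^ 2 ≤ 1 := by nlinarith
      norm_num at hsmall
      linarith
    have hmain := main_bound (r := 2) (ind f) (le_refl 2) hn3 h0 h1 (ind_bounds f)
      (ind_symm hf)
    rw [← hℓ] at hmain
    refine hmain.trans (mul_le_mul_of_nonneg_right ?_ hI0)
    have hγ : ℓ ^ gam 2 = ℓ ^ 2 := by
      have : gam 2 = ((2 : ℕ) : ℝ) := by
        unfold gam; norm_num
      rw [this, Real.rpow_natCast]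
    rw [hγ]
    have h6 := pow_mul_exp_neg_le hℓ0.le (c := 8) (by norm_num) 6
    have h8 := pow_mul_exp_neg_le hℓ0.le (c := 2) (by norm_num) 8
    norm_num [Nat.factorial] at h6 h8
    have hl2 : (524288 : ℝ) < ℓ ^ 2 := by
      norm_num at hsmall; linarith
    have he1 := Real.exp_pos (-ℓ / 8)
    have he2 := Real.exp_pos (-ℓ / 2)
    set A := Real.exp (-ℓ / 8) with hA
    set B := Real.exp (-ℓ / 2) with hB
    have hq : 0 < ℓ ^ 2 := by positivity
    -- `ℓ⁴ A ≤ 360` and `ℓ⁶ B ≤ 20`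
    have h7 : ℓ ^ 4 * A ≤ 360 := by
      have : ℓ ^ 2 * (ℓ ^ 4 * A) ≤ 188743680 := by
        calc ℓ ^ 2 * (ℓ ^ 4 * A) = ℓ ^ 6 * A := by ring
          _ ≤ _ := h6
      have hp : 0 ≤ ℓ ^ 4 * A := by positivity
      nlinarith
    have h9 : ℓ ^ 6 * B ≤ 20 := by
      have : ℓ ^ 2 * (ℓ ^ 6 * B) ≤ 10321920 := by
        calc ℓ ^ 2 * (ℓ ^ 6 * B) = ℓ ^ 8 * B := by ring
          _ ≤ _ := h8
      have hp : 0 ≤ ℓ ^ 6 * B := by positivity
      nlinarith
    rw [le_div_iff₀ hq]
    have e : (256 * ((2 : ℕ) : ℝ) / ℓ ^ 2 + 8 * ℓ ^ 2 * A + 128 * ℓ ^ 4 * B) * ℓ ^ 2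
        = 512 + 8 * (ℓ ^ 4 * A) + 128 * (ℓ ^ 6 * B) := by
      push_cast
      field_simp
      ring
    rw [e]
    norm_num
    linarith

end Crest.Agent.SharpSym
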