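import Crest.Agent.Lib.SharpSym.Block
import Crest.Prelude.Def_HypergraphCube

/-!
# The hypergraph configurations and the main inequality
-/

set_option autoImplicit false

namespace Crest.Agent.SharpSym

open Finset Crest.CombinatoricsR.HypergraphCube

variable {n r : ℕ}

/-- The action of a vertex permutation on slots, as a permutation. -/
def slotPerm (σ : Equiv.Perm (Fin n)) : Equiv.Perm (HyperedgeSlot n r) where
  toFun := relabelSlot σ
  invFun := relabelSlot σ⁻¹
  left_inv e := by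
    apply Subtype.ext
    simp only [relabelSlot, Finset.map_map]
    ext v
    simp
  right_inv e := by
    apply Subtype.ext
    simp only [relabelSlot, Finset.map_map]
    ext v
    simp

lemma permPt_slotPerm (σ : Equiv.Perm (Fin n)) (x : HyperedgeSlot n r → Bool) :
    permPt (slotPerm σ) x = relabel σ x := rfl

/-- Slots disjoint from `X`. -/
def Qs (X : Finset (Fin n)) : Finset (HyperedgeSlot n r) :=
  Finset.univ.filter (fun e => e.1 ∩ X = ∅)

/-- Slots meeting `X` exactly in `x`. -/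
def Es (X : Finset (Fin n)) (x : Fin n) : Finset (HyperedgeSlot n r) :=
  Finset.univ.filter (fun e => e.1 ∩ X = {x})

lemma mem_Qs {X : Finset (Fin n)} {e : HyperedgeSlot n r} : e ∈ Qs X ↔ e.1 ∩ X = ∅ := by
  simp [Qs]

lemma mem_Es {X : Finset (Fin n)} {x : Fin n} {e : HyperedgeSlot n r} :
    e ∈ Es X x ↔ e.1 ∩ X = {x} := by
  simp [Es]

lemma Es_disjoint_Qs (X : Finset (Fin n)) (x : Fin n) :
    Disjoint (Es X x : Finset (HyperedgeSlot n r)) (Qs X) := by
  refine Finset.disjoint_left.mpr (fun e h1 h2 => ?_)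
  rw [mem_Es] at h1
  rw [mem_Qs] at h2
  rw [h1] at h2
  simp at h2

lemma Es_disjoint (X : Finset (Fin n)) {x x' : Fin n} (h : x ≠ x') :
    Disjoint (Es X x : Finset (HyperedgeSlot n r)) (Es X x') := by
  refine Finset.disjoint_left.mpr (fun e h1 h2 => ?_)
  rw [mem_Es] at h1 h2
  rw [h1] at h2
  exact h (Finset.singleton_injective h2)

lemma slotPerm_swap_fix {X : Finset (Fin n)} {x x' : Fin n} (hx : x ∈ X) (hx' : x' ∈ X)
    {e : HyperedgeSlot n r} (he : e ∈ Qs X) :
    slotPerm (Equiv.swap x x') e = e := by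
  rw [mem_Qs] at he
  have h1 : x ∉ e.1 := fun h => by
    have : x ∈ e.1 ∩ X := Finset.mem_inter.mpr ⟨h, hx⟩
    rw [he] at this; simp at this
  have h2 : x' ∉ e.1 := fun h => by
    have : x' ∈ e.1 ∩ X := Finset.mem_inter.mpr ⟨h, hx'⟩
    rw [he] at this; simp at this
  apply Subtype.ext
  show e.1.map (Equiv.swap x x').toEmbedding = e.1
  ext v
  simp only [Finset.mem_map, Equiv.coe_toEmbedding]
  constructor
  · rintro ⟨u, hu, rfl⟩
    have hux : u ≠ x := fun h => h1 (h ▸ hu)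
    have hux' : u ≠ x' := fun h => h2 (h ▸ hu)
    rw [Equiv.swap_apply_of_ne_of_ne hux hux']
    exact hu
  · intro hv
    have hux : v ≠ x := fun h => h1 (h ▸ hv)
    have hux' : v ≠ x' := fun h => h2 (h ▸ hv)
    exact ⟨v, hv, Equiv.swap_apply_of_ne_of_ne hux hux'⟩

lemma slotPerm_swap_Es {X : Finset (Fin n)} {x x' : Fin n} (hx : x ∈ X) (hx' : x' ∈ X)
    {e : HyperedgeSlot n r} (he : e ∈ Es X x) :
    slotPerm (Equiv.swap x x') e ∈ Es X x' := by
  rw [mem_Es] at he ⊢
  show (e.1.map (Equiv.swap x x').toEmbedding) ∩ X = {x'}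
  have hxe : x ∈ e.1 := by
    have : x ∈ e.1 ∩ X := by rw [he]; simp
    exact (Finset.mem_inter.mp this).1
  ext v
  simp only [Finset.mem_inter, Finset.mem_map, Equiv.coe_toEmbedding, Finset.mem_singleton]
  constructor
  · rintro ⟨⟨u, hu, rfl⟩, hvX⟩
    have huX : u ∈ X := by
      by_cases h1 : u = x
      · rw [h1]; exact hx
      · by_cases h2 : u = x'
        · rw [h2]; exact hx'
        · rwa [Equiv.swap_apply_of_ne_of_ne h1 h2] at hvX
    have : u ∈ e.1 ∩ X := Finset.mem_inter.mpr ⟨hu, huX⟩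
    rw [he, Finset.mem_singleton] at this
    rw [this]
    simp
  · rintro rfl
    exact ⟨⟨x, hxe, by simp⟩, hx'⟩

variable (F : (HyperedgeSlot n r → Bool) → ℝ)

/-- The total influence of a real function. -/
noncomputable def totI (p : ℝ) : ℝ := ∑ e : HyperedgeSlot n r, piv p e F

/-- The estimate for one configuration `X`. -/
theorem one_config {p : ℝ} (hp0 : 0 < p) (hp1 : p < 1) (hF : ∀ x, 0 ≤ F x ∧ F x ≤ 1)
    (hsym : ∀ (σ : Equiv.Perm (Fin n)) x, F (relabel σ x) = F x) (X : Finset (Fin n))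
    (d : ℕ) {τ η : ℝ} (hτ : 0 < τ) (hη : 0 ≤ η) (hτη : τ * bB p ^ (d - 1) ≤ η ^ 2) :
    ∑ x ∈ X, ∑ T ∈ lowSets d (Es X x), ∑ S ∈ (Qs X).powerset, coef p F (T ∪ S) ^ 2
      ≤ (sg p ^ 2 * η + 1 / (4 * X.card * τ)) * totI F p := by
  classical
  have hs := sg_pos hp0 hp1
  have hc0 : 0 ≤ sg p ^ 2 * η + 1 / (4 * (X.card : ℝ) * τ) := by positivity
  have h1 : ∀ x ∈ X, ∑ T ∈ lowSets d (Es X x), ∑ S ∈ (Qs X).powerset, coef p F (T ∪ S) ^ 2
      ≤ (sg p ^ 2 * η + 1 / (4 * X.card * τ)) * ∑ e ∈ Es X x, piv p e F := by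
    intro x hx
    refine block_avg hp0 hp1 F hF (Qs X) X (Es X) (fun y _ => Es_disjoint_Qs X y)
      (fun y _ y' _ hne => Es_disjoint X hne) ?_ d hτ hη hτη hx
    intro y hy y' hy'
    refine ⟨slotPerm (Equiv.swap y y'), fun z => ?_, fun e he => slotPerm_swap_fix hy hy' he,
      fun e he => slotPerm_swap_Es hy hy' he⟩
    rw [permPt_slotPerm, hsym]
  refine (Finset.sum_le_sum h1).trans ?_
  rw [← Finset.mul_sum]
  refine mul_le_mul_of_nonneg_left ?_ hc0
  have hd : (X : Set (Fin n)).PairwiseDisjoint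
      (fun x => (Es X x : Finset (HyperedgeSlot n r))) :=
    fun y _ y' _ hne => Es_disjoint X hne
  rw [← Finset.sum_biUnion hd]
  unfold totI
  exact Finset.sum_le_sum_of_subset_of_nonneg (Finset.subset_univ _)
    (fun e _ _ => piv_nonneg hp0 hp1 e F)

/-! ### Counting -/

lemma choose_tail (N k : ℕ) : ∀ j, j ≤ N → N.choose (k + 1) ≤ (N - j).choose (k + 1) + j * (N - 1).choose k := by
  intro j
  induction j with
  | zero => intro _; simp
  | succ j ih =>
    intro hj
    have h1 := ih (by omega)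
    have h2 : N - j = (N - (j + 1)) + 1 := by omega
    have h3 : (N - j).choose (k + 1) = (N - (j + 1)).choose k + (N - (j + 1)).choose (k + 1) := by
      rw [h2, Nat.choose_succ_succ]
    have h4 : (N - (j + 1)).choose k ≤ (N - 1).choose k :=
      Nat.choose_le_choose k (by omega)
    rw [h3] at h1
    have h5 : (j + 1) * (N - 1).choose k = j * (N - 1).choose k + (N - 1).choose k := by ring
    omega

lemma half_count (n v m : ℕ) (hv : 1 ≤ v) (hv' : v ≤ n) (hm : 1 ≤ m) (hmn : m ≤ n)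
    (hc : 2 * (v - 1) * (m - 1) ≤ n - 1) :
    m * n.choose m ≤ 2 * n * (n - v).choose (m - 1) := by
  obtain ⟨N, rfl⟩ : ∃ N, n = N + 1 := ⟨n - 1, by omega⟩
  obtain ⟨k', rfl⟩ : ∃ k', m = k' + 1 := ⟨m - 1, by omega⟩
  obtain ⟨j, rfl⟩ : ∃ j, v = j + 1 := ⟨v - 1, by omega⟩
  simp only [Nat.add_sub_cancel] at hc ⊢
  have e1 : (N + 1 - (j + 1)) = N - j := by omega
  rw [e1]
  have e2 : (k' + 1) * (N + 1).choose (k' + 1) = (N + 1) * N.choose k' := by
    have := Nat.add_one_mul_choose_eq N k'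
    linarith
  rw [e2]
  have key : N.choose k' ≤ 2 * (N - j).choose k' := by
    cases k' with
    | zero => simp
    | succ k =>
      have hN : 1 ≤ N := by omega
      have hjN : j ≤ N := by omega
      have h1 := choose_tail N k j hjN
      have h2 : N * (N - 1).choose k = N.choose (k + 1) * (k + 1) := by
        obtain ⟨M, rfl⟩ : ∃ M, N = M + 1 := ⟨N - 1, by omega⟩
        have := Nat.add_one_mul_choose_eq M k
        simpa using this
      -- multiply by N
      have h3 : N * N.choose (k + 1) ≤ N * (N - j).choose (k + 1) + j * (N * (N - 1).choose k) := by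
        calc N * N.choose (k + 1) ≤ N * ((N - j).choose (k + 1) + j * (N - 1).choose k) :=
              Nat.mul_le_mul_left _ h1
          _ = _ := by ring
      rw [h2] at h3
      have h4 : 2 * (j * (N.choose (k + 1) * (k + 1))) ≤ N * N.choose (k + 1) := by
        have : 2 * j * (k + 1) * N.choose (k + 1) ≤ N * N.choose (k + 1) :=
          Nat.mul_le_mul_right _ hc
        calc 2 * (j * (N.choose (k + 1) * (k + 1))) = 2 * j * (k + 1) * N.choose (k + 1) := by ring
          _ ≤ _ := this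
      have h5 : N * N.choose (k + 1) ≤ N * (2 * (N - j).choose (k + 1)) := by
        have : N * N.choose (k + 1) + N * N.choose (k + 1)
            ≤ N * N.choose (k + 1) + 2 * (N * (N - j).choose (k + 1)) := by
          nlinarith
        calc N * N.choose (k + 1) ≤ 2 * (N * (N - j).choose (k + 1)) := by omega
          _ = _ := by ring
      exact Nat.le_of_mul_le_mul_left h5 (by omega)
  calc (N + 1) * N.choose k' ≤ (N + 1) * (2 * (N - j).choose k') := Nat.mul_le_mul_left _ key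
    _ = _ := by ring

lemma card_filter_ge {n : ℕ} (V : Finset (Fin n)) {x : Fin n} (hx : x ∈ V) {m : ℕ} (hm : 1 ≤ m) :
    (n - V.card).choose (m - 1) ≤
      ((Finset.powersetCard m (Finset.univ : Finset (Fin n))).filter (fun X => X ∩ V = {x})).card := by
  have h0 : ((Finset.univ : Finset (Fin n)) \ V).card = n - V.card := by
    rw [Finset.card_sdiff_of_subset (Finset.subset_univ _)]
    simp
  rw [← h0, ← Finset.card_powersetCard]
  refine Finset.card_le_card_of_injOn (fun X' => insert x X') ?_ ?_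
  · intro X' hX'
    have hX'' := Finset.mem_powersetCard.mp (Finset.mem_coe.mp hX')
    have hxX' : x ∉ X' := fun h => (Finset.mem_sdiff.mp (hX''.1 h)).2 hx
    simp only [Finset.coe_filter, Set.mem_ofPred_eq, Finset.mem_powersetCard, Finset.subset_univ,
      true_and]
    refine ⟨?_, ?_⟩
    · rw [Finset.card_insert_of_notMem hxX', hX''.2]; omega
    · ext v
      simp only [Finset.mem_inter, Finset.mem_insert, Finset.mem_singleton]
      constructor
      · rintro ⟨h1 | h1, h2⟩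
        · exact h1
        · exact absurd h2 (Finset.mem_sdiff.mp (hX''.1 h1)).2
      · rintro rfl
        exact ⟨Or.inl rfl, hx⟩
  · intro X' hX' Y' hY' h
    have hX'' := Finset.mem_powersetCard.mp (Finset.mem_coe.mp hX')
    have hY'' := Finset.mem_powersetCard.mp (Finset.mem_coe.mp hY')
    have hxX' : x ∉ X' := fun h => (Finset.mem_sdiff.mp (hX''.1 h)).2 hx
    have hxY' : x ∉ Y' := fun h => (Finset.mem_sdiff.mp (hY''.1 h)).2 hx
    have := congrArg (fun U => Finset.erase U x) h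
    simpa [Finset.erase_insert hxX', Finset.erase_insert hxY'] using this

/-! ### The main inequality -/

/-- The vertices of a set of slots. -/
def vs (S : Finset (HyperedgeSlot n r)) : Finset (Fin n) := S.biUnion (fun e => e.1)

/-- The slots of `S` through `x`. -/
def lk (x : Fin n) (S : Finset (HyperedgeSlot n r)) : Finset (HyperedgeSlot n r) :=
  S.filter (fun e => x ∈ e.1)

lemma sum_le_sum_union {α : Type*} [DecidableEq α] (A 𝒯 𝒰 : Finset (Finset α))
    (h : Finset α → ℝ) (h0 : ∀ S, 0 ≤ h S) (H : ∀ S ∈ A, ∃ T ∈ 𝒯, ∃ U ∈ 𝒰, T ∪ U = S) :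
    ∑ S ∈ A, h S ≤ ∑ T ∈ 𝒯, ∑ U ∈ 𝒰, h (T ∪ U) := by
  classical
  rw [← Finset.sum_product' (f := fun T U => h (T ∪ U))]
  set g : Finset α × Finset α → Finset α := fun P => P.1 ∪ P.2 with hg
  have hsub : A ⊆ (𝒯 ×ˢ 𝒰).image g := by
    intro S hS
    obtain ⟨T, hT, U, hU, rfl⟩ := H S hS
    exact Finset.mem_image.mpr ⟨(T, U), Finset.mk_mem_product hT hU, rfl⟩
  refine (Finset.sum_le_sum_of_subset_of_nonneg hsub (fun _ _ _ => h0 _)).trans ?_
  rw [← Finset.sum_fiberwise_of_maps_to (s := 𝒯 ×ˢ 𝒰) (t := (𝒯 ×ˢ 𝒰).image g) (g := g)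
    (fun P hP => Finset.mem_image_of_mem g hP) (fun P => h (P.1 ∪ P.2))]
  refine Finset.sum_le_sum (fun S hS => ?_)
  obtain ⟨P, hP, rfl⟩ := Finset.mem_image.mp hS
  have hmem : P ∈ (𝒯 ×ˢ 𝒰).filter (fun Q => g Q = g P) := by
    simp [hP]
  refine le_trans (le_of_eq rfl) (Finset.single_le_sum (f := fun P => h (P.1 ∪ P.2))
    (fun _ _ => h0 _) hmem)

/-- The energy bound: `∑ |S| c(S)² ≤ σ² I`. -/
lemma sum_card_mul_coef_le {ι : Type*} [Fintype ι] [DecidableEq ι] {p : ℝ} (hp0 : 0 < p) (hp1 : p < 1)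
    (G : (ι → Bool) → ℝ) (hG : ∀ x, 0 ≤ G x ∧ G x ≤ 1) :
    ∑ S : Finset ι, (S.card : ℝ) * coef p G S ^ 2 ≤ sg p ^ 2 * ∑ e : ι, piv p e G := by
  classical
  have hs := sg_pos hp0 hp1
  have h1 : ∑ S : Finset ι, (S.card : ℝ) * coef p G S ^ 2
      = ∑ e : ι, ∑ S : Finset ι, (if e ∈ S then coef p G S ^ 2 else 0) := by
    rw [Finset.sum_comm]
    refine Finset.sum_congr rfl (fun S _ => ?_)
    rw [Finset.sum_ite_mem]
    simp
  rw [h1, Finset.mul_sum]
  refine Finset.sum_le_sum (fun e _ => ?_)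
  rw [sum_finset_split e]
  have h2 : ∀ R : Finset ι, (if e ∈ R then (0 : ℝ) else
        (if e ∈ R then coef p G R ^ 2 else 0)
        + (if e ∈ insert e R then coef p G (insert e R) ^ 2 else 0))
      = sg p ^ 2 * (if e ∈ R then 0 else coef p (dd e G) R ^ 2) := by
    intro R
    by_cases hR : e ∈ R
    · simp [hR]
    · simp only [hR, if_false, Finset.mem_insert_self, if_true]
      rw [← coef_dd hp0 hp1 G hR]; ring
  simp_rw [h2]
  rw [← Finset.mul_sum]
  refine mul_le_mul_of_nonneg_left ?_ (by positivity)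
  have h3 : ∑ R : Finset ι, (if e ∈ R then (0 : ℝ) else coef p (dd e G) R ^ 2)
      ≤ ∑ R : Finset ι, coef p (dd e G) R ^ 2 := by
    refine Finset.sum_le_sum (fun R _ => ?_)
    split_ifs <;> first | positivity | exact le_rfl
  refine h3.trans ?_
  rw [← parseval_sq hp0 hp1]
  refine ex_mono hp0.le hp1.le (fun x => ?_)
  have hb : |dd e G x| ≤ 1 := by
    have h1 := hG (Function.update x e true)
    have h2 := hG (Function.update x e false)
    simp only [dd]
    rw [abs_le]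
    constructor <;> linarith [h1.1, h1.2, h2.1, h2.2]
  rw [← sq_abs]
  nlinarith [abs_nonneg (dd e G x)]

/-- Poincaré inequality. -/
lemma poincare {ι : Type*} [Fintype ι] [DecidableEq ι] {p : ℝ} (hp0 : 0 < p) (hp1 : p < 1)
    (G : (ι → Bool) → ℝ) (hG : ∀ x, 0 ≤ G x ∧ G x ≤ 1) :
    ex p (fun x => G x ^ 2) - ex p G ^ 2 ≤ sg p ^ 2 * ∑ e : ι, piv p e G := by
  rw [variance_eq hp0 hp1]
  refine le_trans ?_ (sum_card_mul_coef_le hp0 hp1 G hG)
  refine le_trans ?_ (Finset.sum_le_sum_of_subset_of_nonneg (Finset.subset_univ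
    (Finset.univ.erase (∅ : Finset ι))) (fun S _ _ => by positivity))
  refine Finset.sum_le_sum (fun S hS => ?_)
  have : S ≠ ∅ := (Finset.mem_erase.mp hS).1
  have h1 : 1 ≤ S.card := Finset.card_pos.mpr (Finset.nonempty_iff_ne_empty.mpr this)
  have h2 : (1 : ℝ) ≤ S.card := by exact_mod_cast h1
  nlinarith [sq_nonneg (coef p G S)]

/-- The low-degree part of the spectrum. -/
theorem low_part {p : ℝ} (hp0 : 0 < p) (hp1 : p < 1) (hF : ∀ x, 0 ≤ F x ∧ F x ≤ 1)
    (hsym : ∀ (σ : Equiv.Perm (Fin n)) x, F (relabel σ x) = F x)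
    (d m : ℕ) (hm : 1 ≤ m) (hmn : m ≤ n) (vmax : ℕ) (𝒮 : Finset (Finset (HyperedgeSlot n r)))
    (hlow : ∀ S ∈ 𝒮, (vs S).card ≤ vmax ∧ ∃ x ∈ vs S, (lk x S).card ≤ d)
    (hcount : 2 * (vmax - 1) * (m - 1) ≤ n - 1)
    {τ η : ℝ} (hτ : 0 < τ) (hη : 0 ≤ η) (hτη : τ * bB p ^ (d - 1) ≤ η ^ 2) :
    ∑ S ∈ 𝒮, coef p F S ^ 2
      ≤ (2 * n / m) * (sg p ^ 2 * η + 1 / (4 * m * τ)) * totI F p := by
  classical
  have hs := sg_pos hp0 hp1
  have hm0 : (0 : ℝ) < m := by exact_mod_cast hm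
  have hn0 : (0 : ℝ) < n := by
    have : 0 < n := by omega
    exact_mod_cast this
  set c := sg p ^ 2 * η + 1 / (4 * (m : ℝ) * τ) with hc
  set I := totI F p with hI
  have hI0 : 0 ≤ I := Finset.sum_nonneg (fun e _ => piv_nonneg hp0 hp1 e F)
  set h : Finset (HyperedgeSlot n r) → ℝ := fun S => coef p F S ^ 2 with hh
  have hh0 : ∀ S, 0 ≤ h S := fun S => sq_nonneg _
  set 𝒳 := Finset.powersetCard m (Finset.univ : Finset (Fin n)) with h𝒳
  have hCard : (𝒳.card : ℝ) = (n.choose m : ℝ) := by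
    rw [h𝒳, Finset.card_powersetCard]; simp
  -- the relation
  let P : Finset (Fin n) → Finset (HyperedgeSlot n r) → Prop :=
    fun X S => ∃ x ∈ vs S, (lk x S).card ≤ d ∧ X ∩ vs S = {x}
  -- the estimate for a fixed X
  have hX : ∀ X ∈ 𝒳, ∑ S ∈ 𝒮.filter (P X), h S ≤ c * I := by
    intro X hXmem
    have hXcard : X.card = m := (Finset.mem_powersetCard.mp hXmem).2
    set 𝒢 : Fin n → Finset (Finset (HyperedgeSlot n r)) :=
      fun x => 𝒮.filter (fun S => (lk x S).card ≤ d ∧ X ∩ vs S = {x}) with h𝒢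
    have hsub : 𝒮.filter (P X) ⊆ X.biUnion 𝒢 := by
      intro S hS
      obtain ⟨hS1, x, hx1, hx2, hx3⟩ := Finset.mem_filter.mp hS
      have hxX : x ∈ X := by
        have : x ∈ X ∩ vs S := by rw [hx3]; simp
        exact (Finset.mem_inter.mp this).1
      exact Finset.mem_biUnion.mpr ⟨x, hxX, Finset.mem_filter.mpr ⟨hS1, hx2, hx3⟩⟩
    have hdisj : (X : Set (Fin n)).PairwiseDisjoint 𝒢 := by
      intro x _ x' _ hne
      show Disjoint (𝒢 x) (𝒢 x')
      refine Finset.disjoint_left.mpr (fun S hS hS' => ?_)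
      have h1 := (Finset.mem_filter.mp hS).2.2
      have h2 := (Finset.mem_filter.mp hS').2.2
      rw [h1] at h2
      exact hne (Finset.singleton_injective h2)
    have hstep : ∑ S ∈ 𝒮.filter (P X), h S ≤ ∑ x ∈ X, ∑ S ∈ 𝒢 x, h S := by
      rw [← Finset.sum_biUnion hdisj]
      exact Finset.sum_le_sum_of_subset_of_nonneg hsub (fun _ _ _ => hh0 _)
    have hstep2 : ∀ x ∈ X, ∑ S ∈ 𝒢 x, h S
        ≤ ∑ T ∈ lowSets d (Es X x), ∑ U ∈ (Qs X).powerset, h (T ∪ U) := by
      intro x hxX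
      refine sum_le_sum_union _ _ _ h hh0 (fun S hS => ?_)
      obtain ⟨_, hS2, hS3⟩ := Finset.mem_filter.mp hS
      have hxv : x ∈ vs S := by
        have : x ∈ X ∩ vs S := by rw [hS3]; simp
        exact (Finset.mem_inter.mp this).2
      have hev : ∀ e ∈ S, e.1 ⊆ vs S := fun e he v hv =>
        Finset.mem_biUnion.mpr ⟨e, he, hv⟩
      refine ⟨lk x S, ?_, S.filter (fun e => x ∉ e.1), ?_, ?_⟩
      · rw [mem_lowSets]
        refine ⟨?_, ?_, hS2⟩
        · intro e he
          obtain ⟨he1, he2⟩ := Finset.mem_filter.mp he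
          rw [mem_Es]
          ext v
          simp only [Finset.mem_inter, Finset.mem_singleton]
          constructor
          · rintro ⟨hv1, hv2⟩
            have : v ∈ X ∩ vs S := Finset.mem_inter.mpr ⟨hv2, hev e he1 hv1⟩
            rw [hS3] at this
            exact Finset.mem_singleton.mp this
          · rintro rfl
            exact ⟨he2, hxX⟩
        · obtain ⟨e, he, hxe⟩ := Finset.mem_biUnion.mp hxv
          exact Finset.card_pos.mpr ⟨e, Finset.mem_filter.mpr ⟨he, hxe⟩⟩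
      · rw [Finset.mem_powerset]
        intro e he
        obtain ⟨he1, he2⟩ := Finset.mem_filter.mp he
        rw [mem_Qs]
        ext v
        simp only [Finset.mem_inter, Finset.notMem_empty, iff_false, not_and]
        intro hv1 hv2
        have : v ∈ X ∩ vs S := Finset.mem_inter.mpr ⟨hv2, hev e he1 hv1⟩
        rw [hS3] at this
        rw [Finset.mem_singleton.mp this] at hv1
        exact he2 hv1
      · unfold lk
        exact Finset.filter_union_filter_not_eq _ _
    have hcfg := one_config F hp0 hp1 hF hsym X d hτ hη hτη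
    rw [hXcard] at hcfg
    calc ∑ S ∈ 𝒮.filter (P X), h S ≤ ∑ x ∈ X, ∑ S ∈ 𝒢 x, h S := hstep
      _ ≤ ∑ x ∈ X, ∑ T ∈ lowSets d (Es X x), ∑ U ∈ (Qs X).powerset, h (T ∪ U) :=
          Finset.sum_le_sum hstep2
      _ ≤ c * I := hcfg
  -- sum over X
  have hsumX : ∑ X ∈ 𝒳, ∑ S ∈ 𝒮.filter (P X), h S ≤ (n.choose m : ℝ) * (c * I) := by
    calc _ ≤ ∑ _X ∈ 𝒳, c * I := Finset.sum_le_sum hX
      _ = _ := by rw [Finset.sum_const, nsmul_eq_mul, hCard]
  have hswap : ∑ X ∈ 𝒳, ∑ S ∈ 𝒮.filter (P X), h S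
      = ∑ S ∈ 𝒮, ((𝒳.filter (fun X => P X S)).card : ℝ) * h S := by
    simp_rw [Finset.sum_filter]
    rw [Finset.sum_comm]
    refine Finset.sum_congr rfl (fun S _ => ?_)
    rw [← Finset.sum_filter, Finset.sum_const, nsmul_eq_mul]
  rw [hswap] at hsumX
  -- the lower bound on the number of good X
  have hlb : ∀ S ∈ 𝒮, (m : ℝ) * n.choose m / (2 * n) ≤ ((𝒳.filter (fun X => P X S)).card : ℝ) := by
    intro S hS
    obtain ⟨hv, x₀, hx₀, hd⟩ := hlow S hS
    have hv1 : 1 ≤ (vs S).card := Finset.card_pos.mpr ⟨x₀, hx₀⟩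
    have hvn : (vs S).card ≤ n := by
      simpa using Finset.card_le_univ (vs S)
    have hc' : 2 * ((vs S).card - 1) * (m - 1) ≤ n - 1 := by
      refine le_trans ?_ hcount
      have : (vs S).card - 1 ≤ vmax - 1 := by omega
      exact Nat.mul_le_mul_right _ (Nat.mul_le_mul_left _ this)
    have h1 := half_count n (vs S).card m hv1 hvn hm hmn hc'
    have h2 := card_filter_ge (vs S) hx₀ hm
    have h3 : ((Finset.powersetCard m (Finset.univ : Finset (Fin n))).filter
        (fun X => X ∩ vs S = {x₀})).card ≤ (𝒳.filter (fun X => P X S)).card := by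
      refine Finset.card_le_card (fun X hX => ?_)
      obtain ⟨hX1, hX2⟩ := Finset.mem_filter.mp hX
      exact Finset.mem_filter.mpr ⟨hX1, x₀, hx₀, hd, hX2⟩
    have h4 : m * n.choose m ≤ 2 * n * (𝒳.filter (fun X => P X S)).card :=
      h1.trans (Nat.mul_le_mul_left _ (h2.trans h3))
    rw [div_le_iff₀ (by positivity)]
    have h5 : ((m * n.choose m : ℕ) : ℝ) ≤ ((2 * n * (𝒳.filter (fun X => P X S)).card : ℕ) : ℝ) := by
      exact_mod_cast h4
    push_cast at h5
    linarith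
  have hC0 : (0 : ℝ) < n.choose m := by
    have := Nat.choose_pos hmn
    exact_mod_cast this
  have hfinal : (m : ℝ) * n.choose m / (2 * n) * ∑ S ∈ 𝒮, h S ≤ (n.choose m : ℝ) * (c * I) := by
    rw [Finset.mul_sum]
    refine le_trans (Finset.sum_le_sum (fun S hS => ?_)) hsumX
    exact mul_le_mul_of_nonneg_right (hlb S hS) (hh0 S)
  have e : (m : ℝ) * n.choose m / (2 * n) * ∑ S ∈ 𝒮, h S
      = (n.choose m : ℝ) * ((m : ℝ) / (2 * n) * ∑ S ∈ 𝒮, h S) := by
    ring
  rw [e] at hfinal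
  have h6 := le_of_mul_le_mul_left hfinal hC0
  have e2 : (2 * (n : ℝ) / m) * c * I = (2 * n / m) * (c * I) := by ring
  rw [e2]
  have h7 : ∑ S ∈ 𝒮, h S = (2 * (n : ℝ) / m) * ((m : ℝ) / (2 * n) * ∑ S ∈ 𝒮, h S) := by
    field_simp
  rw [h7]
  exact mul_le_mul_of_nonneg_left h6 (by positivity)

/-- The main inequality. -/
theorem main_ineq {p : ℝ} (hp0 : 0 < p) (hp1 : p < 1) (hF : ∀ x, 0 ≤ F x ∧ F x ≤ 1)
    (hsym : ∀ (σ : Equiv.Perm (Fin n)) x, F (relabel σ x) = F x)
    (d m : ℕ) (hm : 1 ≤ m) (hmn : m ≤ n) (vmax : ℕ) (K : ℝ) (hK : 0 < K)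
    (hlow : ∀ S : Finset (HyperedgeSlot n r), S ≠ ∅ → (S.card : ℝ) < K →
      (vs S).card ≤ vmax ∧ ∃ x ∈ vs S, (lk x S).card ≤ d)
    (hcount : 2 * (vmax - 1) * (m - 1) ≤ n - 1)
    {τ η : ℝ} (hτ : 0 < τ) (hη : 0 ≤ η) (hτη : τ * bB p ^ (d - 1) ≤ η ^ 2) :
    ex p (fun x => F x ^ 2) - ex p F ^ 2 ≤
      (sg p ^ 2 / K + (2 * n / m) * (sg p ^ 2 * η + 1 / (4 * m * τ))) * totI F p := by
  classical
  rw [variance_eq hp0 hp1]
  set 𝒜 := Finset.univ.erase (∅ : Finset (HyperedgeSlot n r)) with h𝒜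
  rw [← Finset.sum_filter_add_sum_filter_not 𝒜 (fun S => (S.card : ℝ) < K)]
  have hA : ∑ S ∈ 𝒜.filter (fun S => (S.card : ℝ) < K), coef p F S ^ 2
      ≤ (2 * n / m) * (sg p ^ 2 * η + 1 / (4 * m * τ)) * totI F p := by
    refine low_part F hp0 hp1 hF hsym d m hm hmn vmax _ (fun S hS => ?_) hcount hτ hη hτη
    obtain ⟨h1, h2⟩ := Finset.mem_filter.mp hS
    exact hlow S (Finset.mem_erase.mp h1).1 h2
  have hB : ∑ S ∈ 𝒜.filter (fun S => ¬ (S.card : ℝ) < K), coef p F S ^ 2
      ≤ sg p ^ 2 / K * totI F p := by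
    have h1 : K * ∑ S ∈ 𝒜.filter (fun S => ¬ (S.card : ℝ) < K), coef p F S ^ 2
        ≤ ∑ S : Finset (HyperedgeSlot n r), (S.card : ℝ) * coef p F S ^ 2 := by
      rw [Finset.mul_sum]
      refine le_trans (Finset.sum_le_sum (fun S hS => ?_))
        (Finset.sum_le_sum_of_subset_of_nonneg (Finset.subset_univ _)
          (fun S _ _ => by positivity))
      have := (Finset.mem_filter.mp hS).2
      exact mul_le_mul_of_nonneg_right (not_lt.mp this) (sq_nonneg _)
    have h2 := sum_card_mul_coef_le hp0 hp1 F hF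
    have h3 := h1.trans h2
    have e : sg p ^ 2 / K * totI F p = (sg p ^ 2 * ∑ e, piv p e F) / K := by
      unfold totI; ring
    rw [e, le_div_iff₀ hK]
    linarith
  rw [add_mul, add_comm (sg p ^ 2 / K * totI F p)]
  exact add_le_add hA hB

end Crest.Agent.SharpSym
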