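import Crest.Agent.Lib.SharpSym.Boolean

/-!
# Russo's formula and growth of the logit
-/

set_option autoImplicit false

namespace Crest.Agent.SharpSym

open Finset Crest.FinProb

section
variable {ι : Type*} [Fintype ι] [DecidableEq ι]

lemma hasDerivAt_weight (x : ι → Bool) (t : ℝ) :
    HasDerivAt (fun s => bernoulliWeight s x)
      (∑ i, rest t i x * (if x i then 1 else -1)) t := by
  unfold bernoulliWeight rest
  have h : ∀ i ∈ (Finset.univ : Finset ι), HasDerivAt (fun s : ℝ => if x i then s else 1 - s)
      (if x i then (1 : ℝ) else -1) t := by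
    intro i _
    by_cases hi : x i = true
    · simp only [hi, if_true]; exact hasDerivAt_id t
    · simp only [hi, if_false]
      simpa using (hasDerivAt_id t).const_sub 1
  have := HasDerivAt.fun_finsetProd h
  simpa [smul_eq_mul] using this

lemma sum_rest_sign (p : ℝ) (i : ι) (F : (ι → Bool) → ℝ) :
    ∑ x, rest p i x * (if x i then 1 else -1) * F x = ex p (dd i F) := by
  have h1 := sum_cube_update i (fun x => rest p i x * (if x i then 1 else -1) * F x)
  have h2 := ex_eq_sum_rest p i (dd i F)
  have hdd : ∀ (x : ι → Bool) (b : Bool), dd i F (Function.update x i b) = dd i F x := by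
    intro x b
    unfold dd
    simp only [Function.update_idem]
  have h3 : ∀ x : ι → Bool, rest p i x * (p * dd i F (Function.update x i true)
        + (1 - p) * dd i F (Function.update x i false)) = rest p i x * dd i F x := by
    intro x
    rw [hdd, hdd]; ring
  simp_rw [h3] at h2
  have h4 : ∀ x : ι → Bool, (rest p i (Function.update x i true)
        * (if Function.update x i true i = true then 1 else -1) * F (Function.update x i true)
      + rest p i (Function.update x i false)
        * (if Function.update x i false i = true then 1 else -1) * F (Function.update x i false))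
      = rest p i x * dd i F x := by
    intro x
    simp only [rest_update, Function.update_self]
    unfold dd
    simp
    ring
  simp_rw [h4] at h1
  linarith

/-- Russo's formula. -/
theorem hasDerivAt_ex (F : (ι → Bool) → ℝ) (t : ℝ) :
    HasDerivAt (fun s => ex s F) (∑ i, ex t (dd i F)) t := by
  have h : HasDerivAt (fun s => ex s F)
      (∑ x : ι → Bool, (∑ i, rest t i x * (if x i then 1 else -1)) * F x) t := by
    unfold ex
    refine HasDerivAt.fun_sum (fun x _ => ?_)
    exact (hasDerivAt_weight x t).mul_const (F x)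
  convert h using 1
  simp_rw [Finset.sum_mul]
  rw [Finset.sum_comm]
  exact Finset.sum_congr rfl (fun i _ => (sum_rest_sign t i F).symm)

end

/-- The growth of the logit of a function satisfying the differential inequality. -/
lemma logit_growth {μ μ' : ℝ → ℝ} {C : ℝ} (hC : 0 < C)
    (hd : ∀ t ∈ Set.Ioo (0 : ℝ) 1, HasDerivAt μ (μ' t) t)
    (hpos : ∀ t ∈ Set.Ioo (0 : ℝ) 1, 0 < μ t ∧ μ t < 1)
    (hode : ∀ t ∈ Set.Ioo (0 : ℝ) 1, μ t * (1 - μ t) ≤ C * μ' t)
    {p q : ℝ} (hp : p ∈ Set.Ioo (0 : ℝ) 1) (hq : q ∈ Set.Ioo (0 : ℝ) 1) (hpq : p ≤ q) :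
    (1 / C) * (q - p) ≤
      (Real.log (μ q) - Real.log (1 - μ q)) - (Real.log (μ p) - Real.log (1 - μ p)) := by
  set Λ : ℝ → ℝ := fun t => Real.log (μ t) - Real.log (1 - μ t) with hΛ
  have hder : ∀ t ∈ Set.Ioo (0 : ℝ) 1,
      HasDerivAt Λ (μ' t / μ t - (- μ' t) / (1 - μ t)) t := by
    intro t ht
    have h1 := (hd t ht)
    obtain ⟨h2, h3⟩ := hpos t ht
    have h4 : HasDerivAt (fun s => 1 - μ s) (- μ' t) t := by
      simpa using h1.const_sub 1
    exact (h1.log h2.ne').sub (h4.log (by linarith))
  have hderiv : ∀ t ∈ Set.Ioo (0 : ℝ) 1, 1 / C ≤ deriv Λ t := by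
    intro t ht
    rw [(hder t ht).deriv]
    obtain ⟨h2, h3⟩ := hpos t ht
    have h4 : 0 < 1 - μ t := by linarith
    have e : μ' t / μ t - (- μ' t) / (1 - μ t) = μ' t / (μ t * (1 - μ t)) := by
      field_simp
      ring
    rw [e, div_le_div_iff₀ hC (by positivity)]
    have := hode t ht
    linarith
  have hcont : ContinuousOn Λ (Set.Ioo (0 : ℝ) 1) :=
    fun t ht => (hder t ht).continuousAt.continuousWithinAt
  have hdiff : DifferentiableOn ℝ Λ (interior (Set.Ioo (0 : ℝ) 1)) := by
    rw [interior_Ioo]
    exact fun t ht => (hder t ht).differentiableAt.differentiableWithinAt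
  have := (convex_Ioo (0 : ℝ) 1).mul_sub_le_image_sub_of_le_deriv hcont hdiff
    (fun t ht => hderiv t (by rwa [interior_Ioo] at ht)) p hp q hq hpq
  exact this

/-- The passage from the logit bound to the statement about `1 - ε`. -/
lemma logit_final {ε a b : ℝ} (hε0 : 0 < ε) (hε : ε < 1 / 2) (ha0 : 0 < a) (ha1 : a < 1)
    (hb0 : 0 < b) (hb1 : b < 1) (hab : ε ≤ a)
    (hg : 4 * Real.log (1 / (2 * ε)) ≤
      (Real.log b - Real.log (1 - b)) - (Real.log a - Real.log (1 - a))) :
    1 - ε ≤ b := by
  by_contra hcon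
  push Not at hcon
  have hε1 : 0 < 1 - ε := by linarith
  -- logs
  have h1 : Real.log ε ≤ Real.log a := Real.log_le_log hε0 hab
  have h2 : Real.log (1 - a) ≤ Real.log (1 - ε) := Real.log_le_log (by linarith) (by linarith)
  have h3 : Real.log b < Real.log (1 - ε) := Real.log_lt_log hb0 hcon
  have h4 : Real.log ε ≤ Real.log (1 - b) := Real.log_le_log hε0 (by linarith)
  have h5 : Real.log (1 / (2 * ε)) = - Real.log 2 - Real.log ε := by
    rw [one_div, Real.log_inv, Real.log_mul (by norm_num) hε0.ne']; ring
  have h6 : Real.log 4 + Real.log ε + Real.log (1 - ε) ≤ 0 := by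
    rw [← Real.log_mul (by norm_num) hε0.ne', ← Real.log_mul (by positivity) hε1.ne']
    apply Real.log_nonpos
    · positivity
    · nlinarith [sq_nonneg (ε - 1 / 2)]
  have h7 : Real.log 4 = 2 * Real.log 2 := by
    rw [show (4 : ℝ) = 2 ^ 2 by norm_num, Real.log_pow]; norm_num
  have h8 : 0 < Real.log (1 / (2 * ε)) := by
    apply Real.log_pos
    rw [lt_div_iff₀ (by positivity)]
    linarith
  rw [h5] at hg h8
  -- the logit at `b` is below `log(1-ε) - log ε`
  linarith

end Crest.Agent.SharpSym
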